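import Mathlib

/-!
# P328: contingency tables and the row-pair heat bath chain (definitions)
-/

namespace Vale.Agent.Lib.P328

open Finset

section Tables

variable {R C : Type*} [Fintype R] [Fintype C] [DecidableEq R] [DecidableEq C]

/-- The contingency tables with row sums `r` and column sums `c`: all `M : R → C → ℕ` with
`∑ z, M i z = r i` and `∑ i, M i z = c z`. (The box in the definition only makes this a finite
set: the entries of row `i` are at most `r i`.) -/
def tables (r : R → ℕ) (c : C → ℕ) : Finset (R → C → ℕ) :=
  (Fintype.piFinset fun i => Fintype.piFinset fun _ => Finset.range (r i + 1)).filter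
    fun M => (∀ i, ∑ z, M i z = r i) ∧ ∀ z, ∑ i, M i z = c z

theorem mem_tables {r : R → ℕ} {c : C → ℕ} {M : R → C → ℕ} :
    M ∈ tables r c ↔ (∀ i, ∑ z, M i z = r i) ∧ ∀ z, ∑ i, M i z = c z := by
  unfold tables
  rw [mem_filter]
  refine ⟨fun h => h.2, fun h => ⟨?_, h⟩⟩
  rw [Fintype.mem_piFinset]
  intro i
  rw [Fintype.mem_piFinset]
  intro z
  rw [Finset.mem_range, Nat.lt_succ_iff, ← h.1 i]
  exact Finset.single_le_sum (f := fun z => M i z) (fun _ _ => Nat.zero_le _) (mem_univ z)

end Tables

section Chain

variable {R C : Type} [Fintype R] [Fintype C] [DecidableEq R] [DecidableEq C]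

/-- The state space of the chain: the set of contingency tables `tables r c`, as a type. -/
abbrev Om (r : R → ℕ) (c : C → ℕ) : Type := {M // M ∈ tables r c}

/-- The tables agreeing with the table `X` on all rows outside the set `e`. -/
def fiberOf {r : R → ℕ} {c : C → ℕ} (e : Finset R) (X : Om r c) : Finset (Om r c) :=
  univ.filter fun Y => ∀ i, i ∉ e → Y.1 i = X.1 i

/-- The heat bath kernel on the rows in `e`: from `X`, resample the rows in `e` uniformly among
all tables agreeing with `X` outside `e`. -/
noncomputable def heatBath {r : R → ℕ} {c : C → ℕ} (e : Finset R) : Matrix (Om r c) (Om r c) ℝ :=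
  fun X Y => if Y ∈ fiberOf e X then 1 / ((fiberOf e X).card : ℝ) else 0

/-- The lazy row-pair heat bath chain on the tables with margins `r`, `c`: with probability `1/2`
stay; otherwise choose a uniformly random pair `e` of rows and apply `heatBath e`. -/
noncomputable def rowPairChain (r : R → ℕ) (c : C → ℕ) : Matrix (Om r c) (Om r c) ℝ :=
  fun X Y => (1 / 2 : ℝ) * (if X = Y then 1 else 0)
    + (1 / 2 : ℝ) * ((1 / ((Fintype.card R).choose 2 : ℝ))
        * ∑ e ∈ powersetCard 2 (univ : Finset R), heatBath e X Y)

end Chain

end Vale.Agent.Lib.P328
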