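import Vale.Agent.Lib.P328.Check

/-!
# Soundness of the certificate checker
-/

namespace Vale.Agent.Lib.P328.Cert

open Finset

/-! ### Elementary facts on the list functions -/

theorem digs_length (base : ℕ) : ∀ k P, (digs base k P).length = k := by
  intro k
  induction k with
  | zero => intro P; rfl
  | succ k ih =>
    intro P
    simp only [digs, force_eq, List.length_cons, ih]

theorem allLt_iff (b : ℕ) : ∀ l : List ℕ, allLt b l = true ↔ ∀ x ∈ l, x < b := by
  intro l
  induction l with
  | nil => simp [allLt]
  | cons a l ih =>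
    simp only [allLt, List.mem_cons, forall_eq_or_imp]
    cases h : Nat.ble (Nat.succ a) b with
    | true =>
      have : a < b := Nat.le_of_ble_eq_true h
      simp [ih, this]
    | false =>
      have : ¬ a < b := fun h2 => by
        have := Nat.ble_eq_true_of_le h2
        simp_all
      simp [this]

theorem sumL_eq : ∀ (l : List ℕ) (acc : ℕ), sumL l acc = l.sum + acc := by
  intro l
  induction l with
  | nil => intro acc; simp [sumL]
  | cons a l ih =>
    intro acc
    simp only [sumL, force_eq, ih, List.sum_cons]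
    show l.sum + (a + acc) = a + l.sum + acc
    ring

theorem pack_cons (B a : ℕ) (l : List ℕ) : pack B (a :: l) = a + B * pack B l := rfl

theorem pack_append (B : ℕ) (x : ℕ) : ∀ l : List ℕ,
    pack B (l ++ [x]) = pack B l + B ^ l.length * x := by
  intro l
  induction l with
  | nil => simp [pack]
  | cons a l ih =>
    simp only [List.cons_append, pack_cons, ih, List.length_cons, pow_succ]
    ring

/-- The repunit. -/
def rep (B : ℕ) : ℕ → ℕ
  | 0 => 0
  | n + 1 => 1 + B * rep B n

theorem pack_le (B b0 : ℕ) : ∀ l : List ℕ, (∀ x ∈ l, x < b0) → pack B l ≤ b0 * rep B l.length := by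
  intro l
  induction l with
  | nil => intro _; simp [pack, rep]
  | cons a l ih =>
    intro h
    have h1 : a < b0 := h a (by simp)
    have h2 := ih (fun x hx => h x (by simp [hx]))
    simp only [pack_cons, List.length_cons, rep]
    have h3 : B * pack B l ≤ B * (b0 * rep B l.length) := Nat.mul_le_mul_left _ h2
    nlinarith

theorem rep_lt (B C : ℕ) (hC : C < B) (X : ℕ) (n : ℕ) (hX : X ≤ C * rep B n) : X < B ^ n := by
  have key : ∀ n, (B - 1) * rep B n + 1 = B ^ n := by
    intro n
    induction n with
    | zero => simp [rep]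
    | succ n ih =>
      obtain ⟨D, rfl⟩ : ∃ D, B = D + 1 := ⟨B - 1, by omega⟩
      simp only [Nat.add_sub_cancel] at ih ⊢
      simp only [rep, pow_succ, ← ih]
      ring
  have h1 := key n
  have h2 : C ≤ B - 1 := by omega
  have h3 : C * rep B n ≤ (B - 1) * rep B n := Nat.mul_le_mul_right _ h2
  omega

/-- The unsigned dot product. -/
def dotN : List ℕ → List ℕ → ℕ
  | a :: l, c :: l' => a * c + dotN l l'
  | _, _ => 0

theorem kron_aux (B b0 : ℕ) : ∀ (n : ℕ) (a c : List ℕ), a.length = n + 1 → c.length = n + 1 →
    (∀ x ∈ a, x < b0) → (∀ x ∈ c, x < b0) →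
    ∃ low high, pack B a * pack B c.reverse = low + B ^ n * (dotN a c + B * high) ∧
      low ≤ (n + 1) * (b0 * b0) * rep B n := by
  intro n
  induction n with
  | zero =>
    intro a c ha hc _ _
    obtain ⟨x, rfl⟩ := List.length_eq_one_iff.1 ha
    obtain ⟨y, rfl⟩ := List.length_eq_one_iff.1 hc
    refine ⟨0, 0, ?_, by simp⟩
    simp [pack, dotN]
  | succ n ih =>
    intro a c ha hc hab hcb
    cases a with
    | nil => simp at ha
    | cons x a1 =>
      cases c with
      | nil => simp at hc
      | cons y c1 =>
        have ha1 : a1.length = n + 1 := by simpa using ha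
        have hc1 : c1.length = n + 1 := by simpa using hc
        have hx : x < b0 := hab x (by simp)
        have hy : y < b0 := hcb y (by simp)
        have hab1 : ∀ z ∈ a1, z < b0 := fun z hz => hab z (by simp [hz])
        have hcb1 : ∀ z ∈ c1, z < b0 := fun z hz => hcb z (by simp [hz])
        obtain ⟨low1, high1, h1, h2⟩ := ih a1 c1 ha1 hc1 hab1 hcb1
        set A1 := pack B a1 with hA1
        set R1 := pack B c1.reverse with hR1
        refine ⟨x * R1 + B * low1, high1 + A1 * y, ?_, ?_⟩
        · have e1 : (y :: c1).reverse = c1.reverse ++ [y] := by simp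
          have e2 : c1.reverse.length = n + 1 := by simpa using hc1
          rw [e1, pack_append, e2, pack_cons, ← hR1, ← hA1]
          simp only [dotN]
          have e3 : (x + B * A1) * (R1 + B ^ (n + 1) * y)
              = x * R1 + B * (A1 * R1) + B ^ (n + 1) * (x * y) + B ^ (n + 1) * (B * (A1 * y)) := by
            ring
          rw [e3, h1]
          ring
        · have h3 : R1 ≤ b0 * rep B (n + 1) := by
            have := pack_le B b0 c1.reverse (fun z hz => hcb1 z (by simpa using hz))
            rwa [e2_helper c1 hc1] at this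
          have h4 : x * R1 ≤ b0 * b0 * rep B (n + 1) := by
            calc x * R1 ≤ b0 * (b0 * rep B (n + 1)) := Nat.mul_le_mul hx.le h3
              _ = _ := by ring
          have h5 : B * low1 ≤ (n + 1) * (b0 * b0) * rep B (n + 1) := by
            calc B * low1 ≤ B * ((n + 1) * (b0 * b0) * rep B n) := Nat.mul_le_mul_left _ h2
              _ = (n + 1) * (b0 * b0) * (B * rep B n) := by ring
              _ ≤ (n + 1) * (b0 * b0) * rep B (n + 1) := by
                apply Nat.mul_le_mul_left
                simp [rep]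
          calc x * R1 + B * low1 ≤ b0 * b0 * rep B (n + 1) + (n + 1) * (b0 * b0) * rep B (n + 1) :=
                Nat.add_le_add h4 h5
            _ = (n + 1 + 1) * (b0 * b0) * rep B (n + 1) := by ring
where
  e2_helper (c1 : List ℕ) {k : ℕ} (h : c1.length = k) : c1.reverse.length = k := by simpa using h

theorem dotN_le (b0 : ℕ) : ∀ (a c : List ℕ), a.length = c.length → (∀ x ∈ a, x < b0) →
    (∀ x ∈ c, x < b0) → dotN a c ≤ a.length * (b0 * b0) := by
  intro a
  induction a with
  | nil => intro c _ _ _; simp [dotN]
  | cons x a ih =>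
    intro c hl hab hcb
    cases c with
    | nil => simp at hl
    | cons y c =>
      have hx : x < b0 := hab x (by simp)
      have hy : y < b0 := hcb y (by simp)
      have h1 := ih c (by simpa using hl) (fun z hz => hab z (by simp [hz]))
        (fun z hz => hcb z (by simp [hz]))
      simp only [dotN, List.length_cons]
      have h2 : x * y ≤ b0 * b0 := Nat.mul_le_mul hx.le hy.le
      nlinarith

/-- Reading off the dot product from a single product. -/
theorem kron (B b0 K : ℕ) (hK : 1 ≤ K) (hB : K * (b0 * b0) < B) (a c : List ℕ)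
    (ha : a.length = K) (hc : c.length = K) (hab : ∀ x ∈ a, x < b0) (hcb : ∀ x ∈ c, x < b0) :
    Nat.mod (Nat.div (Nat.mul (pack B a) (pack B c.reverse)) (B ^ (K - 1))) B = dotN a c := by
  obtain ⟨n, rfl⟩ : ∃ n, K = n + 1 := ⟨K - 1, by omega⟩
  obtain ⟨low, high, h1, h2⟩ := kron_aux B b0 n a c ha hc hab hcb
  have hlow : low < B ^ n := rep_lt B ((n + 1) * (b0 * b0)) hB low n h2
  have hd : dotN a c < B := by
    have := dotN_le b0 a c (by omega) hab hcb
    rw [ha] at this
    omega
  have hpos : 0 < B ^ n := by
    have : 0 < B := by omega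
    positivity
  show (pack B a * pack B c.reverse) / B ^ (n + 1 - 1) % B = dotN a c
  simp only [Nat.add_sub_cancel]
  rw [h1, Nat.add_mul_div_left _ _ hpos, Nat.div_eq_of_lt hlow, zero_add, Nat.add_mul_mod_self_left,
    Nat.mod_eq_of_lt hd]

/-! ### The signed dot product -/

theorem signed_dot (b : ℤ) : ∀ (K : ℕ) (l l' : List ℕ), l.length = K → l'.length = K →
    ∑ k : Fin K, (((l.getD k 0 : ℕ) : ℤ) - b) * (((l'.getD k 0 : ℕ) : ℤ) - b)
      = (dotN l l' : ℤ) - b * (l.sum : ℤ) - b * (l'.sum : ℤ) + K * (b * b) := by
  intro K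
  induction K with
  | zero =>
    intro l l' hl hl'
    have h1 : l = [] := List.length_eq_zero_iff.1 hl
    have h2 : l' = [] := List.length_eq_zero_iff.1 hl'
    subst h1 h2
    simp [dotN]
  | succ K ih =>
    intro l l' hl hl'
    cases l with
    | nil => simp at hl
    | cons x l =>
      cases l' with
      | nil => simp at hl'
      | cons y l' =>
        have h1 := ih l l' (by simpa using hl) (by simpa using hl')
        rw [Fin.sum_univ_succ]
        simp only [Fin.val_zero, List.getD_cons_zero, Fin.val_succ, List.getD_cons_succ, h1, dotN,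
          List.sum_cons]
        push_cast
        ring

/-! ### Specification of the loops -/

theorem allB_iff {α : Type} (f : α → Bool) : ∀ l : List α, allB f l = true ↔ ∀ x ∈ l, f x = true := by
  intro l
  induction l with
  | nil => simp [allB]
  | cons a l ih =>
    simp only [allB, List.mem_cons, forall_eq_or_imp]
    cases h : f a <;> simp [ih]

theorem chk_spec (s : List ℕ) (N S eps D b KB B Bk : ℕ) : ∀ rs : List Rec,
    chk s N S eps D b KB B Bk rs = true →
      (∀ p ∈ rs, diagOK N S eps D b KB B Bk p = true) ∧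
        rs.Pairwise (fun p q => offOK s N S eps b KB B Bk p q = true) := by
  intro rs
  induction rs with
  | nil => intro _; simp
  | cons p rest ih =>
    intro h
    simp only [chk] at h
    cases h1 : diagOK N S eps D b KB B Bk p with
    | false => simp [h1] at h
    | true =>
      rw [h1] at h
      simp only at h
      cases h2 : allB (offOK s N S eps b KB B Bk p) rest with
      | false => simp [h2] at h
      | true =>
        rw [h2] at h
        simp only at h
        obtain ⟨h3, h4⟩ := ih h
        refine ⟨?_, List.pairwise_cons.2 ⟨(allB_iff _ _).1 h2, h4⟩⟩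
        intro q hq
        rcases List.mem_cons.1 hq with rfl | hq
        · exact h1
        · exact h3 q hq

/-- What a decoded row satisfies. -/
structure RecOK (B K b0 : ℕ) (r : Rec) : Prop where
  len : r.l.length = K
  lt : ∀ x ∈ r.l, x < b0
  hA : r.A = pack B r.l
  hR : r.R = pack B r.l.reverse
  hσ : r.σ = r.l.sum

theorem mkRec_spec {base B K b0 : ℕ} {u : Node} {P : ℕ} {r : Rec}
    (h : mkRec base B K b0 u P = some r) : r.u = u ∧ RecOK B K b0 r := by
  unfold mkRec at h
  simp only at h
  cases h1 : allLt b0 (digs base K P) with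
  | false => simp [h1] at h
  | true =>
    rw [h1] at h
    simp only [force_eq, Option.some.injEq] at h
    subst h
    exact ⟨rfl, ⟨digs_length _ _ _, (allLt_iff _ _).1 h1, rfl, rfl, by simp [sumL_eq]⟩⟩

theorem mkRecs_spec {base B K b0 : ℕ} : ∀ {us : List Node} {Ps : List ℕ} {rs : List Rec},
    mkRecs base B K b0 us Ps = some rs →
      rs.map Rec.u = us ∧ ∀ r ∈ rs, RecOK B K b0 r := by
  intro us
  induction us with
  | nil =>
    intro Ps rs h
    cases Ps with
    | nil =>
      simp only [mkRecs, Option.some.injEq] at h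
      subst h
      simp
    | cons P Ps => simp [mkRecs] at h
  | cons u us ih =>
    intro Ps rs h
    cases Ps with
    | nil => simp [mkRecs] at h
    | cons P Ps =>
      simp only [mkRecs] at h
      cases h1 : mkRec base B K b0 u P with
      | none => simp [h1] at h
      | some r =>
        rw [h1] at h
        simp only at h
        cases h2 : mkRecs base B K b0 us Ps with
        | none => simp [h2] at h
        | some rs' =>
          rw [h2] at h
          simp only [Option.some.injEq] at h
          subst h
          obtain ⟨h3, h4⟩ := mkRec_spec h1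
          obtain ⟨h5, h6⟩ := ih h2
          refine ⟨by simp [h3, h5], ?_⟩
          intro q hq
          rcases List.mem_cons.1 hq with rfl | hq
          · exact h4
          · exact h6 q hq

/-- The off-diagonal entry of the quadratic form. -/
def offVal (N : ℕ) (s : List ℕ) (u u' : Node) : ℤ :=
  if u.tag = u'.tag then 2 * (u.w : ℤ) * (u'.w : ℤ)
  else if compat u.vec u'.vec s = true then -(N : ℤ) else 0

theorem compat_comm : ∀ x y s : List ℕ, compat x y s = compat y x s := by
  intro x
  induction x with
  | nil =>
    intro y s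
    cases y <;> simp [compat]
  | cons a x ih =>
    intro y s
    cases y with
    | nil => simp [compat]
    | cons c y =>
      cases s with
      | nil => simp [compat]
      | cons h t =>
        simp only [compat]
        have : Nat.add a c = Nat.add c a := Nat.add_comm a c
        rw [this, ih]

theorem offVal_comm (N : ℕ) (s : List ℕ) (u u' : Node) : offVal N s u u' = offVal N s u' u := by
  unfold offVal
  by_cases h : u.tag = u'.tag
  · rw [if_pos h, if_pos h.symm]; ring
  · have h' : ¬ u'.tag = u.tag := fun e => h e.symm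
    rw [if_neg h, if_neg h', compat_comm]

/-- The signed dot product of two certificate rows. -/
def sdot (K : ℕ) (b : ℤ) (p q : Rec) : ℤ :=
  ∑ k : Fin K, (((p.l.getD k 0 : ℕ) : ℤ) - b) * (((q.l.getD k 0 : ℕ) : ℤ) - b)

theorem sdot_comm (K : ℕ) (b : ℤ) (p q : Rec) : sdot K b p q = sdot K b q p := by
  unfold sdot
  exact Finset.sum_congr rfl fun _ _ => mul_comm _ _

section Tests

variable {s : List ℕ} {N S eps D b K B b0 : ℕ}

theorem fdot_eq (hK : 1 ≤ K) (hB : K * (b0 * b0) < B) {p q : Rec} (hp : RecOK B K b0 p)
    (hq : RecOK B K b0 q) : fdot B (B ^ (K - 1)) p q = dotN p.l q.l := by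
  unfold fdot
  rw [hp.hA, hq.hR]
  exact kron B b0 K hK hB _ _ hp.len hq.len hp.lt hq.lt

theorem ble_pair {pos neg e : ℕ}
    (h : (match Nat.ble pos (Nat.add neg e) with
      | true => Nat.ble neg (Nat.add pos e)
      | false => false) = true) : pos ≤ neg + e ∧ neg ≤ pos + e := by
  have h' : (match Nat.ble pos (neg + e) with
      | true => Nat.ble neg (pos + e)
      | false => false) = true := h
  cases h1 : Nat.ble pos (neg + e) with
  | false =>
    rw [h1] at h'
    exact absurd h' (by simp)
  | true =>
    rw [h1] at h'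
    exact ⟨Nat.le_of_ble_eq_true h1, Nat.le_of_ble_eq_true h'⟩

theorem offOK_spec (hK : 1 ≤ K) (hB : K * (b0 * b0) < B) {p q : Rec} (hp : RecOK B K b0 p)
    (hq : RecOK B K b0 q)
    (h : offOK s N S eps b (K * (b * b)) B (B ^ (K - 1)) p q = true) :
    |(S : ℤ) * offVal N s p.u q.u - sdot K b p q| ≤ eps := by
  have hF := fdot_eq hK hB hp hq
  have hsd : sdot K b p q = (dotN p.l q.l : ℤ) - b * (p.l.sum : ℤ) - b * (q.l.sum : ℤ)
      + K * ((b : ℤ) * b) := signed_dot _ _ _ _ hp.len hq.len
  unfold offOK at h
  simp only [force_eq, hF] at h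
  rw [hsd, ← hp.hσ, ← hq.hσ]
  unfold offVal
  by_cases ht : p.u.tag = q.u.tag
  · have hb : Nat.beq p.u.tag q.u.tag = true := by simp [ht]
    rw [hb] at h
    rw [if_pos ht]
    obtain ⟨h2, h3⟩ := ble_pair h
    have h2a : S * (2 * (p.u.w * q.u.w)) + b * (p.σ + q.σ) ≤ dotN p.l q.l + K * (b * b) + eps := h2
    have h3a : dotN p.l q.l + K * (b * b) ≤ S * (2 * (p.u.w * q.u.w)) + b * (p.σ + q.σ) + eps := h3
    have h2' : ((S * (2 * (p.u.w * q.u.w)) + b * (p.σ + q.σ) : ℕ) : ℤ)
        ≤ ((dotN p.l q.l + K * (b * b) + eps : ℕ) : ℤ) := by exact_mod_cast h2a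
    have h3' : ((dotN p.l q.l + K * (b * b) : ℕ) : ℤ)
        ≤ ((S * (2 * (p.u.w * q.u.w)) + b * (p.σ + q.σ) + eps : ℕ) : ℤ) := by exact_mod_cast h3a
    push_cast at h2' h3'
    rw [abs_le]
    constructor <;> nlinarith
  · have hb : Nat.beq p.u.tag q.u.tag = false := by
      cases hh : Nat.beq p.u.tag q.u.tag with
      | false => rfl
      | true => exact absurd (Nat.eq_of_beq_eq_true hh) ht
    rw [hb] at h
    rw [if_neg ht]
    cases hc : compat p.u.vec q.u.vec s with
    | true =>
      rw [hc] at h
      obtain ⟨h2, h3⟩ := ble_pair h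
      have h2a : b * (p.σ + q.σ) ≤ S * N + (dotN p.l q.l + K * (b * b)) + eps := h2
      have h3a : S * N + (dotN p.l q.l + K * (b * b)) ≤ b * (p.σ + q.σ) + eps := h3
      have h2' : ((b * (p.σ + q.σ) : ℕ) : ℤ)
          ≤ ((S * N + (dotN p.l q.l + K * (b * b)) + eps : ℕ) : ℤ) := by exact_mod_cast h2a
      have h3' : ((S * N + (dotN p.l q.l + K * (b * b)) : ℕ) : ℤ)
          ≤ ((b * (p.σ + q.σ) + eps : ℕ) : ℤ) := by exact_mod_cast h3a
      push_cast at h2' h3'
      simp only [if_true]
      rw [abs_le]
      constructor <;> nlinarith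
    | false =>
      rw [hc] at h
      obtain ⟨h2, h3⟩ := ble_pair h
      have h2a : b * (p.σ + q.σ) ≤ dotN p.l q.l + K * (b * b) + eps := h2
      have h3a : dotN p.l q.l + K * (b * b) ≤ b * (p.σ + q.σ) + eps := h3
      have h2' : ((b * (p.σ + q.σ) : ℕ) : ℤ)
          ≤ ((dotN p.l q.l + K * (b * b) + eps : ℕ) : ℤ) := by exact_mod_cast h2a
      have h3' : ((dotN p.l q.l + K * (b * b) : ℕ) : ℤ)
          ≤ ((b * (p.σ + q.σ) + eps : ℕ) : ℤ) := by exact_mod_cast h3a
      push_cast at h2' h3'
      simp only [Bool.false_eq_true, if_false]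
      rw [abs_le]
      constructor <;> nlinarith

theorem diagOK_spec (hK : 1 ≤ K) (hB : K * (b0 * b0) < B) {p : Rec} (hp : RecOK B K b0 p)
    (h : diagOK N S eps D b (K * (b * b)) B (B ^ (K - 1)) p = true) :
    ((D - 1 : ℕ) : ℤ) * eps
      ≤ (S : ℤ) * ((N : ℤ) * p.u.w + offVal N s p.u p.u) - sdot K b p p := by
  have hF := fdot_eq hK hB hp hp
  have hsd : sdot K b p p = (dotN p.l p.l : ℤ) - b * (p.l.sum : ℤ) - b * (p.l.sum : ℤ)
      + K * ((b : ℤ) * b) := signed_dot _ _ _ _ hp.len hp.len
  unfold diagOK at h
  simp only [force_eq, hF] at h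
  have h2 := Nat.le_of_ble_eq_true h
  have h3 : dotN p.l p.l + K * (b * b) + (D - 1) * eps
      ≤ S * (N * p.u.w + 2 * (p.u.w * p.u.w)) + b * (2 * p.σ) := h2
  have h4 : ((dotN p.l p.l + K * (b * b) + (D - 1) * eps : ℕ) : ℤ)
      ≤ ((S * (N * p.u.w + 2 * (p.u.w * p.u.w)) + b * (2 * p.σ) : ℕ) : ℤ) := by exact_mod_cast h3
  rw [hsd, ← hp.hσ]
  unfold offVal
  simp only [if_true]
  rw [Nat.cast_add, Nat.cast_add, Nat.cast_mul ((D - 1 : ℕ))] at h4
  push_cast at h4
  nlinarith

end Tests

/-! ### The core inequality -/

theorem cert_core {D K : ℕ} (off : Fin D → Fin D → ℤ) (dg : Fin D → ℤ) (L : Fin D → Fin K → ℤ)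
    (S : ℕ) (hS : 0 < S) (ε : ℕ)
    (h1 : ∀ i j, i ≠ j → |(S : ℤ) * off i j - ∑ k, L i k * L j k| ≤ ε)
    (h2 : ∀ i, ((D - 1 : ℕ) : ℤ) * ε ≤ (S : ℤ) * dg i - ∑ k, L i k * L i k)
    (x : Fin D → ℝ) :
    0 ≤ ∑ i, (dg i : ℝ) * x i ^ 2 + ∑ i, ∑ j, (if i = j then 0 else (off i j : ℝ)) * x i * x j := by
  classical
  have hSpos : (0 : ℝ) < S := by exact_mod_cast hS
  -- the square part
  have hsq : 0 ≤ ∑ i, ∑ j, (∑ k, (L i k : ℝ) * L j k) * x i * x j := by
    have e : ∑ i, ∑ j, (∑ k, (L i k : ℝ) * L j k) * x i * x j
        = ∑ k, (∑ i, (L i k : ℝ) * x i) ^ 2 := by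
      have e1 : ∀ k, (∑ i, (L i k : ℝ) * x i) ^ 2
          = ∑ i, ∑ j, ((L i k : ℝ) * L j k) * x i * x j := by
        intro k
        rw [sq, Finset.sum_mul_sum]
        exact Finset.sum_congr rfl fun i _ => Finset.sum_congr rfl fun j _ => by ring
      simp_rw [e1]
      symm
      calc ∑ k, ∑ i, ∑ j, ((L i k : ℝ) * L j k) * x i * x j
          = ∑ i, ∑ k, ∑ j, ((L i k : ℝ) * L j k) * x i * x j := Finset.sum_comm
        _ = ∑ i, ∑ j, ∑ k, ((L i k : ℝ) * L j k) * x i * x j :=
            Finset.sum_congr rfl fun i _ => Finset.sum_comm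
        _ = ∑ i, ∑ j, (∑ k, (L i k : ℝ) * L j k) * x i * x j :=
            Finset.sum_congr rfl fun i _ => Finset.sum_congr rfl fun j _ => by
              rw [Finset.sum_mul, Finset.sum_mul]
    rw [e]
    exact Finset.sum_nonneg fun k _ => sq_nonneg _
  -- the residual matrix
  set A : Fin D → Fin D → ℝ := fun i j =>
    (S : ℝ) * (if i = j then (dg i : ℝ) else (off i j : ℝ)) - ∑ k, (L i k : ℝ) * L j k with hA
  have hAoff : ∀ i j, i ≠ j → |A i j| ≤ ε := by
    intro i j hij
    have := h1 i j hij
    simp only [hA, if_neg hij]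
    have h3 : ((|(S : ℤ) * off i j - ∑ k, L i k * L j k| : ℤ) : ℝ) ≤ ((ε : ℤ) : ℝ) := by
      exact_mod_cast this
    push_cast at h3
    exact h3
  have hAdiag : ∀ i, ((D - 1 : ℕ) : ℝ) * ε ≤ A i i := by
    intro i
    have := h2 i
    simp only [hA, if_true]
    have h3 : ((((D - 1 : ℕ) : ℤ) * (ε : ℤ) : ℤ) : ℝ)
        ≤ (((S : ℤ) * dg i - ∑ k, L i k * L i k : ℤ) : ℝ) := by exact_mod_cast this
    push_cast at h3
    exact h3
  -- the residual form is nonnegative
  have hres : 0 ≤ ∑ i, ∑ j, A i j * x i * x j := by
    have hT : ∑ i : Fin D, ∑ j : Fin D, (if i = j then (0 : ℝ) else |x i| * |x j|)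
        ≤ ((D - 1 : ℕ) : ℝ) * ∑ i, x i ^ 2 := by
      have hp : ∀ i j, (if i = j then (0 : ℝ) else |x i| * |x j|)
          ≤ (if i = j then 0 else (x i ^ 2 + x j ^ 2) / 2) := by
        intro i j
        by_cases h : i = j
        · simp [h]
        · simp only [h, if_false]
          have := sq_nonneg (|x i| - |x j|)
          have h4 : |x i| ^ 2 = x i ^ 2 := sq_abs _
          have h5 : |x j| ^ 2 = x j ^ 2 := sq_abs _
          nlinarith
      have h6 : ∀ i, ∑ j, (if i = j then (0 : ℝ) else (x i ^ 2 + x j ^ 2) / 2)
          = ∑ j, (x i ^ 2 + x j ^ 2) / 2 - x i ^ 2 := by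
        intro i
        have : ∀ j, (if i = j then (0 : ℝ) else (x i ^ 2 + x j ^ 2) / 2)
            = (x i ^ 2 + x j ^ 2) / 2 - (if i = j then x i ^ 2 else 0) := by
          intro j
          by_cases h : i = j
          · subst h
            simp only [if_true]
            ring
          · simp [h]
        simp_rw [this]
        rw [Finset.sum_sub_distrib, Finset.sum_ite_eq]
        simp
      have h7 : ∑ i, ∑ j, (if i = j then (0 : ℝ) else (x i ^ 2 + x j ^ 2) / 2)
          = ((D - 1 : ℕ) : ℝ) * ∑ i, x i ^ 2 := by
        simp_rw [h6]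
        rw [Finset.sum_sub_distrib]
        have h8 : ∑ i, ∑ j, (x i ^ 2 + x j ^ 2) / 2 = (D : ℝ) * ∑ i, x i ^ 2 := by
          simp_rw [add_div, Finset.sum_add_distrib, ← Finset.sum_div]
          simp only [Finset.sum_const, Finset.card_univ, Fintype.card_fin, nsmul_eq_mul]
          rw [← Finset.mul_sum]
          ring
        rw [h8]
        rcases Nat.eq_zero_or_pos D with h0 | h0
        · subst h0
          simp
        · have : ((D - 1 : ℕ) : ℝ) = (D : ℝ) - 1 := by
            rw [Nat.cast_sub h0]; simp
          rw [this]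
          ring
      calc ∑ i, ∑ j, (if i = j then (0 : ℝ) else |x i| * |x j|)
          ≤ ∑ i, ∑ j, (if i = j then (0 : ℝ) else (x i ^ 2 + x j ^ 2) / 2) :=
            Finset.sum_le_sum fun i _ => Finset.sum_le_sum fun j _ => hp i j
        _ = _ := h7
    have hlow : ∀ i j, A i j * x i * x j
        ≥ (if i = j then ((D - 1 : ℕ) : ℝ) * ε * x i ^ 2 else 0)
          - (ε : ℝ) * (if i = j then 0 else |x i| * |x j|) := by
      intro i j
      by_cases h : i = j
      · subst h
        simp only [if_true, mul_zero, sub_zero]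
        have := hAdiag i
        have h3 := sq_nonneg (x i)
        nlinarith
      · simp only [h, if_false, zero_sub]
        have h3 := hAoff i j h
        have h4 : |A i j * x i * x j| ≤ ε * (|x i| * |x j|) := by
          rw [abs_mul, abs_mul, mul_assoc]
          exact mul_le_mul_of_nonneg_right h3 (by positivity)
        have := neg_abs_le (A i j * x i * x j)
        linarith
    have hsum : ∑ i, ∑ j, A i j * x i * x j
        ≥ ∑ i, ∑ j, ((if i = j then ((D - 1 : ℕ) : ℝ) * ε * x i ^ 2 else 0)
          - (ε : ℝ) * (if i = j then 0 else |x i| * |x j|)) :=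
      Finset.sum_le_sum fun i _ => Finset.sum_le_sum fun j _ => hlow i j
    have hsum2 : ∑ i, ∑ j, ((if i = j then ((D - 1 : ℕ) : ℝ) * ε * x i ^ 2 else 0)
          - (ε : ℝ) * (if i = j then 0 else |x i| * |x j|))
        = ((D - 1 : ℕ) : ℝ) * ε * ∑ i, x i ^ 2
          - (ε : ℝ) * ∑ i, ∑ j, (if i = j then 0 else |x i| * |x j|) := by
      simp_rw [Finset.sum_sub_distrib, Finset.sum_ite_eq, ← Finset.mul_sum]
      simp only [Finset.mem_univ, if_true]
      rw [Finset.mul_sum]
      congr 1
      rw [Finset.mul_sum]
    have hε : (0 : ℝ) ≤ ε := by positivity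
    have := mul_le_mul_of_nonneg_left hT hε
    rw [hsum2] at hsum
    nlinarith
  -- assembling
  have hform : (S : ℝ) * (∑ i, (dg i : ℝ) * x i ^ 2
        + ∑ i, ∑ j, (if i = j then 0 else (off i j : ℝ)) * x i * x j)
      = ∑ i, ∑ j, A i j * x i * x j + ∑ i, ∑ j, (∑ k, (L i k : ℝ) * L j k) * x i * x j := by
    have e1 : ∀ i j, A i j * x i * x j + (∑ k, (L i k : ℝ) * L j k) * x i * x j
        = (S : ℝ) * (if i = j then (dg i : ℝ) else (off i j : ℝ)) * x i * x j := by
      intro i j
      simp only [hA]
      ring
    have e0 : ∑ i, ∑ j, A i j * x i * x j + ∑ i, ∑ j, (∑ k, (L i k : ℝ) * L j k) * x i * x j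
        = ∑ i, ∑ j, (S : ℝ) * (if i = j then (dg i : ℝ) else (off i j : ℝ)) * x i * x j := by
      rw [← Finset.sum_add_distrib]
      refine Finset.sum_congr rfl fun i _ => ?_
      rw [← Finset.sum_add_distrib]
      exact Finset.sum_congr rfl fun j _ => e1 i j
    rw [e0, mul_add, Finset.mul_sum, Finset.mul_sum, ← Finset.sum_add_distrib]
    refine Finset.sum_congr rfl fun i _ => ?_
    have e2 : ∀ j, (S : ℝ) * (if i = j then (dg i : ℝ) else (off i j : ℝ)) * x i * x j
        = (if i = j then (S : ℝ) * (dg i : ℝ) * x i ^ 2 else 0)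
          + (S : ℝ) * ((if i = j then 0 else (off i j : ℝ)) * x i * x j) := by
      intro j
      by_cases h : i = j
      · subst h
        simp only [if_true]
        ring
      · simp only [h, if_false]
        ring
    rw [Finset.sum_congr rfl (fun j _ => e2 j), Finset.sum_add_distrib, Finset.sum_ite_eq,
      ← Finset.mul_sum]
    simp only [Finset.mem_univ, if_true]
    ring
  have h0 := add_nonneg hres hsq
  rw [← hform] at h0
  exact nonneg_of_mul_nonneg_right h0 hSpos

/-- **Soundness.** A successful check gives the nonnegativity of the quadratic form on the nodes. -/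
theorem check_sound {s : List ℕ} {a b d S eps base bias K W : ℕ} {rows : List ℕ}
    (h : check s a b d S eps base bias K W rows = true) (v : Node → ℝ) :
    0 ≤ ((nodes s a b d).map fun u => ((total s a b : ℝ) * (u.w : ℝ)) * v u ^ 2).sum
      + ((nodes s a b d).map fun u =>
          ((nodes s a b d).map fun u' => (offVal (total s a b) s u u' : ℝ) * v u * v u').sum).sum := by
  unfold check at h
  rw [force_eq, force_eq] at h
  set B := Nat.pow 2 W with hBdef
  have hBk : Nat.pow B (Nat.sub K 1) = B ^ (K - 1) := rfl
  rw [hBk] at h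
  cases h1 : Nat.ble 1 S with
  | false =>
    rw [h1] at h
    simp at h
  | true =>
    cases h2 : Nat.ble 1 K with
    | false =>
      rw [h1, h2] at h
      simp at h
    | true =>
      cases h3 : Nat.ble (Nat.succ (Nat.mul K (Nat.mul base base))) B with
      | false =>
        rw [h1, h2, h3] at h
        simp at h
      | true =>
        rw [h1, h2, h3] at h
        simp only at h
        have hS : 0 < S := Nat.le_of_ble_eq_true h1
        have hK : 1 ≤ K := Nat.le_of_ble_eq_true h2
        have hB : K * (base * base) < B := Nat.le_of_ble_eq_true h3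
        cases h4 : mkRecs base B K base (nodes s a b d) rows with
        | none => simp [h4] at h
        | some rs =>
          rw [h4] at h
          simp only at h
          obtain ⟨hmap, hok⟩ := mkRecs_spec h4
          have hKB : Nat.mul K (Nat.mul bias bias) = K * (bias * bias) := rfl
          rw [hKB] at h
          obtain ⟨hdiag, hpw⟩ := chk_spec _ _ _ _ _ _ _ _ _ _ h
          set N := total s a b with hN
          rw [← hmap]
          simp only [List.map_map, Function.comp_def]
          have hlen : (nodes s a b d).length = rs.length := by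
            rw [← hmap]; simp
          rw [hlen] at hdiag
          set n := rs.length with hn
          have hget : ∀ i : Fin n, (rs[i.1]'(by simpa [hn] using i.2)) ∈ rs := fun i =>
            List.getElem_mem _
          let R : Fin n → Rec := fun i => rs[i.1]'(by simpa [hn] using i.2)
          have hR : ∀ i, R i ∈ rs := fun i => hget i
          have hRok : ∀ i, RecOK B K base (R i) := fun i => hok _ (hR i)
          let off : Fin n → Fin n → ℤ := fun i j => offVal N s (R i).u (R j).u
          let dg : Fin n → ℤ := fun i => (N : ℤ) * (R i).u.w + off i i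
          let L : Fin n → Fin K → ℤ := fun i k => (((R i).l.getD k 0 : ℕ) : ℤ) - (bias : ℤ)
          have hsd : ∀ i j, ∑ k, L i k * L j k = sdot K bias (R i) (R j) := fun i j => rfl
          have hoff : ∀ i j, i.1 < j.1 → |(S : ℤ) * off i j - ∑ k, L i k * L j k| ≤ eps := by
            intro i j hij
            rw [hsd]
            have := List.pairwise_iff_getElem.1 hpw i.1 j.1 (by simpa [hn] using i.2)
              (by simpa [hn] using j.2) hij
            exact offOK_spec hK hB (hRok i) (hRok j) this
          have h1' : ∀ i j, i ≠ j → |(S : ℤ) * off i j - ∑ k, L i k * L j k| ≤ eps := by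
            intro i j hij
            rcases lt_or_gt_of_ne (fun e => hij (Fin.ext e) : i.1 ≠ j.1) with hlt | hlt
            · exact hoff i j hlt
            · have := hoff j i hlt
              rw [hsd, sdot_comm, ← hsd]
              have e : off i j = off j i := offVal_comm _ _ _ _
              rw [e]
              exact this
          have h2' : ∀ i, ((n - 1 : ℕ) : ℤ) * eps ≤ (S : ℤ) * dg i - ∑ k, L i k * L i k := by
            intro i
            rw [hsd]
            exact diagOK_spec hK hB (hRok i) (hdiag _ (hR i))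
          have hcore := cert_core off dg L S hS eps h1' h2' (fun i => v (R i).u)
          have hsum1 : ∀ f : Rec → ℝ, (rs.map f).sum = ∑ i : Fin n, f (R i) := by
            intro f
            exact (Fin.sum_univ_fun_getElem rs f).symm
          rw [hsum1]
          have e1 : ∀ p : Rec, (rs.map fun x => (offVal N s p.u x.u : ℝ) * v p.u * v x.u).sum
              = ∑ j : Fin n, (offVal N s p.u (R j).u : ℝ) * v p.u * v (R j).u := fun p => hsum1 _
          simp only [e1]
          rw [hsum1 fun p => ∑ j : Fin n, (offVal N s p.u (R j).u : ℝ) * v p.u * v (R j).u]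
          have e2 : ∀ i j, (offVal N s (R i).u (R j).u : ℝ) * v (R i).u * v (R j).u
              = (if i = j then (off i i : ℝ) * v (R i).u ^ 2 else 0)
                + (if i = j then 0 else (off i j : ℝ)) * v (R i).u * v (R j).u := by
            intro i j
            by_cases hij : i = j
            · subst hij
              simp only [if_true, off]
              ring
            · simp only [hij, if_false, off]
              ring
          have e3 : ∀ i, ∑ j, (offVal N s (R i).u (R j).u : ℝ) * v (R i).u * v (R j).u
              = (off i i : ℝ) * v (R i).u ^ 2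
                + ∑ j, (if i = j then 0 else (off i j : ℝ)) * v (R i).u * v (R j).u := by
            intro i
            rw [Finset.sum_congr rfl fun j _ => e2 i j, Finset.sum_add_distrib, Finset.sum_ite_eq]
            simp
          simp only [e3]
          rw [Finset.sum_add_distrib, ← add_assoc, ← Finset.sum_add_distrib]
          have e4 : ∀ i, (N : ℝ) * ((R i).u.w : ℝ) * v (R i).u ^ 2 + (off i i : ℝ) * v (R i).u ^ 2
              = (dg i : ℝ) * v (R i).u ^ 2 := by
            intro i
            simp only [dg]
            push_cast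
            ring
          simp only [e4]
          exact hcore

end Vale.Agent.Lib.P328.Cert
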