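import Vale.Agent.Lib.P328.Defs
import Vale.Agent.Lib.P328.CheckSound

/-!
# From a successful check to the three-row inequality
-/

namespace Vale.Agent.Lib.P328

open Finset Cert

set_option linter.unusedSectionVars false

section ListFacts

theorem mem_bounded : ∀ (S : List ℕ) (v : ℕ) (w : List ℕ),
    w ∈ bounded S v ↔ List.Forall₂ (· ≤ ·) w S ∧ w.sum = v := by
  intro S
  induction S with
  | nil =>
    intro v w
    cases v with
    | zero =>
      simp only [bounded, List.mem_singleton, List.forall₂_nil_right_iff]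
      constructor
      · rintro rfl; simp
      · rintro ⟨h, _⟩; exact h
    | succ v =>
      simp only [bounded, List.not_mem_nil, List.forall₂_nil_right_iff, false_iff, not_and]
      rintro rfl
      simp
  | cons h t ih =>
    intro v w
    simp only [bounded, List.mem_flatMap, List.mem_range, List.mem_map]
    constructor
    · rintro ⟨u, hu, w', hw', rfl⟩
      have hu' : u ≤ h ∧ u ≤ v := by
        have : u ≤ Nat.min h v := Nat.lt_succ_iff.1 hu
        exact ⟨le_trans this (Nat.min_le_left _ _), le_trans this (Nat.min_le_right _ _)⟩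
      obtain ⟨h1, h2⟩ := (ih _ _).1 hw'
      refine ⟨List.Forall₂.cons hu'.1 h1, ?_⟩
      simp only [List.sum_cons, h2]
      omega
    · rintro ⟨h1, h2⟩
      cases h1 with
      | cons h3 h4 =>
        rename_i u w'
        refine ⟨u, ?_, w', (ih _ _).2 ⟨h4, ?_⟩, rfl⟩
        · simp only [List.sum_cons] at h2
          have : u ≤ Nat.min h v := Nat.le_min.2 ⟨h3, by omega⟩
          exact Nat.lt_succ_iff.2 this
        · simp only [List.sum_cons] at h2
          omega

theorem nodup_bounded : ∀ (S : List ℕ) (v : ℕ), (bounded S v).Nodup := by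
  intro S
  induction S with
  | nil =>
    intro v
    cases v <;> simp [bounded]
  | cons h t ih =>
    intro v
    simp only [bounded]
    rw [List.nodup_flatMap]
    constructor
    · intro u _
      exact (ih _).map (fun a b hab => by simpa using hab)
    · apply List.Pairwise.imp_of_mem ?_ (List.nodup_range)
      intro a b _ _ hab
      simp only [Function.onFun]
      rw [List.disjoint_left]
      intro w ha hb
      obtain ⟨w1, _, rfl⟩ := List.mem_map.1 ha
      obtain ⟨w2, _, h2⟩ := List.mem_map.1 hb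
      simp only [List.cons.injEq] at h2
      exact hab h2.1.symm

theorem compat_map {C : Type*} (x y c : C → ℕ) : ∀ l : List C,
    compat (l.map x) (l.map y) (l.map c) = true ↔ ∀ z ∈ l, x z + y z ≤ c z := by
  intro l
  induction l with
  | nil => simp [compat]
  | cons a l ih =>
    simp only [List.map_cons, compat, List.mem_cons, forall_eq_or_imp]
    cases h : Nat.ble (Nat.add (x a) (y a)) (c a) with
    | true =>
      have h1 : x a + y a ≤ c a := Nat.le_of_ble_eq_true h
      simp only [ih]
      simp [h1]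
    | false =>
      have h1 : ¬ x a + y a ≤ c a := fun h2 => by
        have := Nat.ble_eq_true_of_le h2
        have h3 : Nat.ble (x a + y a) (c a) = false := h
        simp_all
      simp [h1]

end ListFacts

section Ext

variable {C : Type*} [Fintype C] [DecidableEq C]

/-- A list of values on the columns of `l`, as a function on all columns. -/
def ext (l : List C) (w : List ℕ) : C → ℕ := fun z => if z ∈ l then w.getD (l.idxOf z) 0 else 0

theorem map_ext {l : List C} (hnd : l.Nodup) {w : List ℕ} (hw : w.length = l.length) :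
    l.map (ext l w) = w := by
  apply List.ext_getElem
  · simp [hw]
  · intro i h1 h2
    have h3 : i < l.length := by simpa using h1
    simp only [List.getElem_map]
    have h4 : l[i] ∈ l := List.getElem_mem _
    simp only [ext, h4, if_true]
    rw [hnd.idxOf_getElem i h3]
    simp [h2]

theorem ext_map {l : List C} (x : C → ℕ) (hx : ∀ z, z ∉ l → x z = 0) : ext l (l.map x) = x := by
  funext z
  unfold ext
  by_cases hz : z ∈ l
  · rw [if_pos hz]
    have h1 : l.idxOf z < l.length := List.idxOf_lt_length_iff.2 hz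
    simp [h1, List.getElem_idxOf]
  · rw [if_neg hz, hx z hz]

theorem ext_eq_zero {l : List C} (w : List ℕ) {z : C} (hz : z ∉ l) : ext l w z = 0 := by
  simp [ext, hz]

theorem sum_eq_map_sum {l : List C} (hnd : l.Nodup) (x : C → ℕ) (hx : ∀ z, z ∉ l → x z = 0) :
    ∑ z, x z = (l.map x).sum := by
  rw [← List.sum_toFinset x hnd]
  symm
  apply Finset.sum_subset (subset_univ _)
  intro z _ hz
  exact hx z (fun h => hz (List.mem_toFinset.2 h))

/-- The box of all `x ≤ c` with entry sum `v`. -/
def box (c : C → ℕ) (v : ℕ) : Finset (C → ℕ) :=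
  (Fintype.piFinset fun z => Finset.range (c z + 1)).filter fun x => ∑ z, x z = v

theorem mem_box {c : C → ℕ} {v : ℕ} {x : C → ℕ} :
    x ∈ box c v ↔ (∀ z, x z ≤ c z) ∧ ∑ z, x z = v := by
  unfold box
  rw [mem_filter, Fintype.mem_piFinset]
  simp only [Finset.mem_range, Nat.lt_succ_iff]

variable {l : List C} {c : C → ℕ}

theorem zero_off (hsupp : ∀ z, c z ≠ 0 → z ∈ l) {x : C → ℕ} (hx : ∀ z, x z ≤ c z) :
    ∀ z, z ∉ l → x z = 0 := by
  intro z hz
  have : c z = 0 := by
    by_contra h
    exact hz (hsupp z h)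
  have h2 := hx z
  omega

theorem forall₂_map (x y : C → ℕ) : ∀ l : List C,
    List.Forall₂ (· ≤ ·) (l.map x) (l.map y) ↔ ∀ z ∈ l, x z ≤ y z := by
  intro l
  induction l with
  | nil => simp
  | cons a l ih =>
    simp only [List.map_cons, List.forall₂_cons, List.mem_cons, forall_eq_or_imp, ih]

/-- A sum over the box, as a sum over the enumeration. -/
theorem sum_box (hnd : l.Nodup) (hsupp : ∀ z, c z ≠ 0 → z ∈ l) (v : ℕ) (φ : (C → ℕ) → ℝ) :
    ∑ x ∈ box c v, φ x = ((bounded (l.map c) v).map fun w => φ (ext l w)).sum := by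
  rw [← List.sum_toFinset _ (nodup_bounded _ _)]
  apply Finset.sum_nbij' (fun x => l.map x) (fun w => ext l w)
  · intro x hx
    obtain ⟨h1, h2⟩ := mem_box.1 hx
    rw [List.mem_toFinset, mem_bounded]
    refine ⟨(forall₂_map _ _ _).2 fun z _ => h1 z, ?_⟩
    rw [← sum_eq_map_sum hnd x (zero_off hsupp h1), h2]
  · intro w hw
    rw [List.mem_toFinset, mem_bounded] at hw
    obtain ⟨h1, h2⟩ := hw
    have hlen : w.length = l.length := by
      have := h1.length_eq
      simpa using this
    have hmap := map_ext hnd hlen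
    rw [← hmap] at h1
    rw [mem_box]
    have hle : ∀ z, ext l w z ≤ c z := by
      intro z
      by_cases hz : z ∈ l
      · exact (forall₂_map _ _ _).1 h1 z hz
      · rw [ext_eq_zero w hz]
        exact Nat.zero_le _
    refine ⟨hle, ?_⟩
    rw [sum_eq_map_sum hnd _ (fun z hz => ext_eq_zero w hz), hmap, h2]
  · intro x hx
    exact ext_map x (zero_off hsupp (mem_box.1 hx).1)
  · intro w hw
    rw [List.mem_toFinset, mem_bounded] at hw
    have hlen : w.length = l.length := by
      have := hw.1.length_eq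
      simpa using this
    exact map_ext hnd hlen
  · intro x hx
    rw [ext_map x (zero_off hsupp (mem_box.1 hx).1)]

end Ext

section Pair

variable {C : Type*} [Fintype C] [DecidableEq C]

/-- The third row of a table from two rows. -/
def mk3 (c : C → ℕ) (i j : Fin 3) (x y : C → ℕ) : Fin 3 → C → ℕ :=
  fun k => if k = i then x else if k = j then y else fun z => c z - x z - y z

theorem third (i j : Fin 3) (hij : i ≠ j) :
    ∃ k, k ≠ i ∧ k ≠ j ∧ ∀ g : Fin 3 → ℕ, ∑ l, g l = g i + g j + g k := by
  fin_cases i <;> fin_cases j <;> first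
    | exact absurd rfl hij
    | exact ⟨0, by decide, by decide, fun g => by simp [Fin.sum_univ_three]; try ring⟩
    | exact ⟨1, by decide, by decide, fun g => by simp [Fin.sum_univ_three]; try ring⟩
    | exact ⟨2, by decide, by decide, fun g => by simp [Fin.sum_univ_three]; try ring⟩

theorem fin3_third : ∀ i j k l : Fin 3, i ≠ j → k ≠ i → k ≠ j → l ≠ i → l ≠ j → l = k := by
  decide

variable {a : Fin 3 → ℕ} {c : C → ℕ}

theorem sum_pair (hsum : ∑ i, a i = ∑ z, c z) {i j : Fin 3} (hij : i ≠ j) (f h : (C → ℕ) → ℝ) :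
    ∑ M ∈ tables a c, f (M i) * h (M j)
      = ∑ x ∈ box c (a i), ∑ y ∈ box c (a j),
          if (∀ z, x z + y z ≤ c z) then f x * h y else 0 := by
  obtain ⟨k, hki, hkj, hk⟩ := third i j hij
  have hR : ∑ x ∈ box c (a i), ∑ y ∈ box c (a j),
      (if (∀ z, x z + y z ≤ c z) then f x * h y else 0)
      = ∑ p ∈ ((box c (a i)) ×ˢ (box c (a j))).filter (fun p => ∀ z, p.1 z + p.2 z ≤ c z),
          f p.1 * h p.2 := by
    rw [Finset.sum_filter, Finset.sum_product]
  rw [hR]
  apply Finset.sum_nbij' (fun M => (M i, M j)) (fun p => mk3 c i j p.1 p.2)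
  · intro M hM
    obtain ⟨h1, h2⟩ := mem_tables.1 hM
    have hle : ∀ l z, M l z ≤ c z := fun l z => by
      rw [← h2 z]
      exact Finset.single_le_sum (f := fun l => M l z) (fun _ _ => Nat.zero_le _) (mem_univ l)
    simp only [mem_filter, mem_product]
    refine ⟨⟨mem_box.2 ⟨hle i, h1 i⟩, mem_box.2 ⟨hle j, h1 j⟩⟩, fun z => ?_⟩
    rw [← h2 z, hk fun l => M l z]
    omega
  · rintro ⟨x, y⟩ hp
    simp only [mem_filter, mem_product] at hp
    obtain ⟨⟨hx, hy⟩, hc⟩ := hp
    obtain ⟨hx1, hx2⟩ := mem_box.1 hx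
    obtain ⟨hy1, hy2⟩ := mem_box.1 hy
    rw [mem_tables]
    have hthird : ∑ z, (c z - x z - y z) = a k := by
      have h1 : ∑ z, (c z - x z - y z) + ∑ z, x z + ∑ z, y z = ∑ z, c z := by
        rw [← Finset.sum_add_distrib, ← Finset.sum_add_distrib]
        refine Finset.sum_congr rfl fun z _ => ?_
        have := hc z
        omega
      have h2 := hk a
      omega
    constructor
    · intro l
      by_cases h1 : l = i
      · subst h1
        simp only [mk3, if_true]
        exact hx2
      · by_cases h2 : l = j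
        · subst h2
          simp only [mk3, h1, if_false, if_true]
          exact hy2
        · have h3 : l = k := fin3_third i j k l hij hki hkj h1 h2
          subst h3
          simp only [mk3, h1, h2, if_false]
          exact hthird
    · intro z
      rw [hk fun l => mk3 c i j x y l z]
      have hji : j ≠ i := hij.symm
      simp only [mk3, if_true, hji, if_false, hki, hkj]
      have := hc z
      omega
  · intro M hM
    obtain ⟨h1, h2⟩ := mem_tables.1 hM
    funext l z
    by_cases h3 : l = i
    · subst h3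
      simp [mk3]
    · by_cases h4 : l = j
      · subst h4
        simp [mk3, h3]
      · have h5 : l = k := fin3_third i j k l hij hki hkj h3 h4
        subst h5
        simp only [mk3, h3, h4, if_false]
        have := h2 z
        rw [hk fun l => M l z] at this
        omega
  · rintro ⟨x, y⟩ _
    have hji : j ≠ i := hij.symm
    simp [mk3, hji]
  · intro M _
    rfl

variable {l : List C}

/-- The compatibility test on the enumeration. -/
theorem compat_iff (hnd : l.Nodup) {w w' : List ℕ} (hw : w.length = l.length)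
    (hw' : w'.length = l.length) :
    compat w w' (l.map c) = true ↔ ∀ z, ext l w z + ext l w' z ≤ c z := by
  have h1 := compat_map (ext l w) (ext l w') c l
  rw [map_ext hnd hw, map_ext hnd hw'] at h1
  rw [h1]
  constructor
  · intro h z
    by_cases hz : z ∈ l
    · exact h z hz
    · rw [ext_eq_zero w hz, ext_eq_zero w' hz]
      exact Nat.zero_le _
  · intro h z _
    exact h z

theorem length_of_mem_bounded {S w : List ℕ} {v : ℕ} (h : w ∈ bounded S v) : w.length = S.length :=
  ((mem_bounded _ _ _).1 h).1.length_eq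

theorem sum_pair_list (hnd : l.Nodup) (hsupp : ∀ z, c z ≠ 0 → z ∈ l)
    (hsum : ∑ i, a i = ∑ z, c z) {i j : Fin 3} (hij : i ≠ j) (f h : (C → ℕ) → ℝ) :
    ∑ M ∈ tables a c, f (M i) * h (M j)
      = ((bounded (l.map c) (a i)).map fun w =>
          ((bounded (l.map c) (a j)).map fun w' =>
            if compat w w' (l.map c) = true then f (ext l w) * h (ext l w') else 0).sum).sum := by
  rw [sum_pair hsum hij, sum_box hnd hsupp (a i)]
  congr 1
  apply List.map_congr_left
  intro w hw
  rw [sum_box hnd hsupp (a j)]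
  congr 1
  apply List.map_congr_left
  intro w' hw'
  have hw1 : w.length = l.length := by simpa using length_of_mem_bounded hw
  have hw2 : w'.length = l.length := by simpa using length_of_mem_bounded hw'
  have := compat_iff (c := c) hnd hw1 hw2
  by_cases hc : compat w w' (l.map c) = true
  · rw [if_pos hc, if_pos (this.1 hc)]
  · rw [if_neg hc, if_neg (fun h2 => hc (this.2 h2))]

end Pair

section Star

/-- **The three-row inequality** for a set of margins: mean-zero functions of the rows of a
uniformly random table satisfy `Var (g₁ + g₂ + g₃) ≤ 2 (Var g₁ + Var g₂ + Var g₃)`. -/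
def Star {R C : Type*} [Fintype R] [Fintype C] [DecidableEq R] [DecidableEq C]
    (r : R → ℕ) (c : C → ℕ) : Prop :=
  ∀ G : R → (C → ℕ) → ℝ, (∀ a, ∑ M ∈ tables r c, G a (M a) = 0) →
    ∑ M ∈ tables r c, (∑ a, G a (M a)) ^ 2 ≤ 2 * ∑ M ∈ tables r c, ∑ a, (G a (M a)) ^ 2

variable {C : Type*} [Fintype C] [DecidableEq C] {a : Fin 3 → ℕ} {c : C → ℕ} {l : List C}

theorem cnt_real (s x : List ℕ) : ∀ (L : List (List ℕ)) (acc : ℕ),
    ((cnt s x L acc : ℕ) : ℝ) = acc + (L.map fun y => if compat x y s = true then (1 : ℝ) else 0).sum := by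
  intro L
  induction L with
  | nil => intro acc; simp [cnt]
  | cons y L ih =>
    intro acc
    simp only [cnt, List.map_cons, List.sum_cons]
    cases h : compat x y s with
    | true =>
      simp only [force_eq, ih, if_true]
      push_cast
      ring
    | false =>
      simp only [ih, Bool.false_eq_true, if_false]
      ring

theorem nodesOf_eq (s : List ℕ) (tag : ℕ) (L other : List (List ℕ)) :
    nodesOf s tag L other = L.map fun x => ⟨tag, x, cnt s x other 0⟩ := by
  simp only [nodesOf, force_eq]

/-- Weights count tables. -/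
theorem weight_sum (hnd : l.Nodup) (hsupp : ∀ z, c z ≠ 0 → z ∈ l)
    (hsum : ∑ i, a i = ∑ z, c z) {k o : Fin 3} (hko : k ≠ o) (t : ℕ) (ψ : (C → ℕ) → ℝ) :
    ((nodesOf (l.map c) t (bounded (l.map c) (a k)) (bounded (l.map c) (a o))).map fun u =>
        (u.w : ℝ) * ψ (ext l u.vec)).sum
      = ∑ M ∈ tables a c, ψ (M k) := by
  have h := sum_pair_list (a := a) (c := c) hnd hsupp hsum hko ψ (fun _ => 1)
  simp only [mul_one] at h
  rw [h, nodesOf_eq, List.map_map]
  congr 1
  apply List.map_congr_left
  intro w _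
  simp only [Function.comp_apply]
  rw [cnt_real]
  simp only [Nat.cast_zero, zero_add]
  rw [mul_comm, ← List.sum_map_mul_left]
  congr 1
  apply List.map_congr_left
  intro y _
  by_cases hc : compat w y (l.map c) = true <;> simp [hc]

/-- Double sums over lists of nodes. -/
def DS (A B : List Node) (F : Node → Node → ℝ) : ℝ :=
  (A.map fun u => (B.map fun u' => F u u').sum).sum

theorem DS_append_right (A B B' : List Node) (F : Node → Node → ℝ) :
    DS A (B ++ B') F = DS A B F + DS A B' F := by
  unfold DS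
  rw [← List.sum_map_add]
  congr 1
  apply List.map_congr_left
  intro u _
  rw [List.map_append, List.sum_append]

theorem DS_append_left (A A' B : List Node) (F : Node → Node → ℝ) :
    DS (A ++ A') B F = DS A B F + DS A' B F := by
  unfold DS
  rw [List.map_append, List.sum_append]

/-- The value of a node. -/
noncomputable def val (l : List C) (G : Fin 3 → (C → ℕ) → ℝ) (u : Node) : ℝ :=
  G (Fin.ofNat 3 u.tag) (ext l u.vec)

theorem ds_cross (hnd : l.Nodup) (hsupp : ∀ z, c z ≠ 0 → z ∈ l)
    (hsum : ∑ i, a i = ∑ z, c z) {k k' : Fin 3} (hkk : k ≠ k') {t t' : ℕ} (htt : t ≠ t')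
    (ht : Fin.ofNat 3 t = k) (ht' : Fin.ofNat 3 t' = k') (X Y : List (List ℕ)) (N : ℕ)
    (G : Fin 3 → (C → ℕ) → ℝ) :
    DS (nodesOf (l.map c) t (bounded (l.map c) (a k)) X)
        (nodesOf (l.map c) t' (bounded (l.map c) (a k')) Y)
        (fun u u' => (offVal N (l.map c) u u' : ℝ) * val l G u * val l G u')
      = - (N : ℝ) * ∑ M ∈ tables a c, G k (M k) * G k' (M k') := by
  rw [sum_pair_list hnd hsupp hsum hkk]
  unfold DS
  rw [nodesOf_eq, nodesOf_eq, List.map_map, ← List.sum_map_mul_left]
  congr 1
  apply List.map_congr_left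
  intro w _
  simp only [Function.comp_apply]
  rw [List.map_map, ← List.sum_map_mul_left]
  congr 1
  apply List.map_congr_left
  intro w' _
  simp only [Function.comp_apply, offVal, val, htt, if_false, ht, ht']
  by_cases hc : compat w w' (l.map c) = true
  · simp only [hc, if_true]
    push_cast
    ring
  · simp only [hc, if_false]
    push_cast
    ring

theorem ds_same (hnd : l.Nodup) (hsupp : ∀ z, c z ≠ 0 → z ∈ l)
    (hsum : ∑ i, a i = ∑ z, c z) {k o : Fin 3} (hko : k ≠ o) {t : ℕ}
    (ht : Fin.ofNat 3 t = k) (N : ℕ) (G : Fin 3 → (C → ℕ) → ℝ)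
    (hG : ∑ M ∈ tables a c, G k (M k) = 0) :
    DS (nodesOf (l.map c) t (bounded (l.map c) (a k)) (bounded (l.map c) (a o)))
        (nodesOf (l.map c) t (bounded (l.map c) (a k)) (bounded (l.map c) (a o)))
        (fun u u' => (offVal N (l.map c) u u' : ℝ) * val l G u * val l G u') = 0 := by
  set n := nodesOf (l.map c) t (bounded (l.map c) (a k)) (bounded (l.map c) (a o)) with hn
  have htag : ∀ u ∈ n, u.tag = t := by
    intro u hu
    rw [hn, nodesOf_eq] at hu
    obtain ⟨x, _, rfl⟩ := List.mem_map.1 hu
    rfl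
  have hsumw : (n.map fun u => (u.w : ℝ) * val l G u).sum = 0 := by
    rw [← hG, ← weight_sum hnd hsupp hsum hko t (G k), ← hn]
    congr 1
    apply List.map_congr_left
    intro u hu
    simp only [val, htag u hu, ht]
  unfold DS
  have h1 : ∀ u ∈ n, (n.map fun u' => (offVal N (l.map c) u u' : ℝ) * val l G u * val l G u').sum
      = 2 * (u.w : ℝ) * val l G u * (n.map fun u' => (u'.w : ℝ) * val l G u').sum := by
    intro u hu
    rw [← List.sum_map_mul_left]
    congr 1
    apply List.map_congr_left
    intro u' hu'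
    have : u.tag = u'.tag := by rw [htag u hu, htag u' hu']
    simp only [offVal, this, if_true]
    push_cast
    ring
  rw [List.map_congr_left h1]
  simp [hsumw]

theorem sumW_eq : ∀ (us : List Node) (acc : ℕ), sumW us acc = (us.map Node.w).sum + acc := by
  intro us
  induction us with
  | nil => intro acc; simp [sumW]
  | cons u us ih =>
    intro acc
    simp only [sumW, force_eq, ih, List.map_cons, List.sum_cons]
    show (us.map Node.w).sum + (u.w + acc) = u.w + (us.map Node.w).sum + acc
    ring

theorem total_eq (hnd : l.Nodup) (hsupp : ∀ z, c z ≠ 0 → z ∈ l)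
    (hsum : ∑ i, a i = ∑ z, c z) : total (l.map c) (a 0) (a 1) = (tables a c).card := by
  have h := weight_sum (a := a) (c := c) hnd hsupp hsum (k := 0) (o := 1) (by decide) 0 (fun _ => 1)
  simp only [mul_one, Finset.sum_const, nsmul_eq_mul] at h
  have h2 : ((total (l.map c) (a 0) (a 1) : ℕ) : ℝ) = ((tables a c).card : ℝ) := by
    rw [← h]
    unfold total
    rw [sumW_eq]
    push_cast
    simp [List.map_map, Function.comp_def]
  exact_mod_cast h2

/-- **From a successful check to the three-row inequality.** -/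
theorem star_of_check (hnd : l.Nodup) (hsupp : ∀ z, c z ≠ 0 → z ∈ l)
    {S eps base bias K W : ℕ} {rows : List ℕ}
    (h : check (l.map c) (a 0) (a 1) (a 2) S eps base bias K W rows = true) : Star a c := by
  intro G hG
  by_cases hT : tables a c = ∅
  · simp [hT]
  have hsum : ∑ i, a i = ∑ z, c z := by
    obtain ⟨M, hM⟩ := Finset.nonempty_iff_ne_empty.2 hT
    obtain ⟨h1, h2⟩ := mem_tables.1 hM
    rw [← Finset.sum_congr rfl (fun i _ => h1 i), ← Finset.sum_congr rfl (fun z _ => h2 z),
      Finset.sum_comm]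
  have hform := check_sound h (val l G)
  rw [total_eq hnd hsupp hsum] at hform
  set N := (tables a c).card with hN
  have hNpos : (0 : ℝ) < N := by
    have : 0 < N := Finset.card_pos.2 (Finset.nonempty_iff_ne_empty.2 hT)
    exact_mod_cast this
  set s := l.map c with hs
  -- the first sum
  have hfirst : ((nodes s (a 0) (a 1) (a 2)).map fun u => ((N : ℝ) * (u.w : ℝ)) * val l G u ^ 2).sum
      = (N : ℝ) * (∑ M ∈ tables a c, (G 0 (M 0)) ^ 2 + ∑ M ∈ tables a c, (G 1 (M 1)) ^ 2
          + ∑ M ∈ tables a c, (G 2 (M 2)) ^ 2) := by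
    have key : ∀ {k o : Fin 3} {t : ℕ}, k ≠ o → Fin.ofNat 3 t = k →
        ((nodesOf s t (bounded s (a k)) (bounded s (a o))).map fun u =>
          ((N : ℝ) * (u.w : ℝ)) * val l G u ^ 2).sum
          = (N : ℝ) * ∑ M ∈ tables a c, (G k (M k)) ^ 2 := by
      intro k o t hko ht
      rw [← weight_sum hnd hsupp hsum hko t (fun x => (G k x) ^ 2), ← List.sum_map_mul_left]
      congr 1
      apply List.map_congr_left
      intro u hu
      have htag : u.tag = t := by
        rw [nodesOf_eq] at hu
        obtain ⟨x, _, rfl⟩ := List.mem_map.1 hu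
        rfl
      simp only [val, htag, ht]
      ring
    unfold nodes
    rw [List.map_append, List.map_append, List.sum_append, List.sum_append,
      key (k := 0) (o := 1) (t := 0) (by decide) rfl,
      key (k := 1) (o := 0) (t := 1) (by decide) rfl,
      key (k := 2) (o := 0) (t := 2) (by decide) rfl]
    ring
  -- the second sum
  have hsecond : ((nodes s (a 0) (a 1) (a 2)).map fun u =>
      ((nodes s (a 0) (a 1) (a 2)).map fun u' =>
        (offVal N s u u' : ℝ) * val l G u * val l G u').sum).sum
      = - (N : ℝ) * (2 * (∑ M ∈ tables a c, G 0 (M 0) * G 1 (M 1)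
          + ∑ M ∈ tables a c, G 0 (M 0) * G 2 (M 2)
          + ∑ M ∈ tables a c, G 1 (M 1) * G 2 (M 2))) := by
    change DS (nodes s (a 0) (a 1) (a 2)) (nodes s (a 0) (a 1) (a 2)) _ = _
    simp only [nodes, DS_append_left, DS_append_right]
    rw [ds_same hnd hsupp hsum (k := 0) (o := 1) (by decide) (t := 0) rfl N G (hG 0),
      ds_same hnd hsupp hsum (k := 1) (o := 0) (by decide) (t := 1) rfl N G (hG 1),
      ds_same hnd hsupp hsum (k := 2) (o := 0) (by decide) (t := 2) rfl N G (hG 2),
      ds_cross hnd hsupp hsum (k := 0) (k' := 1) (by decide) (t := 0) (t' := 1) (by decide) rfl rfl,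
      ds_cross hnd hsupp hsum (k := 0) (k' := 2) (by decide) (t := 0) (t' := 2) (by decide) rfl rfl,
      ds_cross hnd hsupp hsum (k := 1) (k' := 0) (by decide) (t := 1) (t' := 0) (by decide) rfl rfl,
      ds_cross hnd hsupp hsum (k := 1) (k' := 2) (by decide) (t := 1) (t' := 2) (by decide) rfl rfl,
      ds_cross hnd hsupp hsum (k := 2) (k' := 0) (by decide) (t := 2) (t' := 0) (by decide) rfl rfl,
      ds_cross hnd hsupp hsum (k := 2) (k' := 1) (by decide) (t := 2) (t' := 1) (by decide) rfl rfl]
    have c1 : ∑ M ∈ tables a c, G 1 (M 1) * G 0 (M 0) = ∑ M ∈ tables a c, G 0 (M 0) * G 1 (M 1) :=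
      Finset.sum_congr rfl fun _ _ => mul_comm _ _
    have c2 : ∑ M ∈ tables a c, G 2 (M 2) * G 0 (M 0) = ∑ M ∈ tables a c, G 0 (M 0) * G 2 (M 2) :=
      Finset.sum_congr rfl fun _ _ => mul_comm _ _
    have c3 : ∑ M ∈ tables a c, G 2 (M 2) * G 1 (M 1) = ∑ M ∈ tables a c, G 1 (M 1) * G 2 (M 2) :=
      Finset.sum_congr rfl fun _ _ => mul_comm _ _
    rw [c1, c2, c3]
    ring
  rw [hfirst, hsecond] at hform
  -- conclusion
  have hexp : ∑ M ∈ tables a c, (∑ a', G a' (M a')) ^ 2
      = ∑ M ∈ tables a c, (G 0 (M 0)) ^ 2 + ∑ M ∈ tables a c, (G 1 (M 1)) ^ 2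
        + ∑ M ∈ tables a c, (G 2 (M 2)) ^ 2
        + 2 * (∑ M ∈ tables a c, G 0 (M 0) * G 1 (M 1) + ∑ M ∈ tables a c, G 0 (M 0) * G 2 (M 2)
          + ∑ M ∈ tables a c, G 1 (M 1) * G 2 (M 2)) := by
    simp only [Fin.sum_univ_three]
    rw [← Finset.sum_add_distrib, ← Finset.sum_add_distrib, ← Finset.sum_add_distrib,
      ← Finset.sum_add_distrib, Finset.mul_sum, ← Finset.sum_add_distrib]
    refine Finset.sum_congr rfl fun M _ => ?_
    ring
  have hexp2 : ∑ M ∈ tables a c, ∑ a', (G a' (M a')) ^ 2
      = ∑ M ∈ tables a c, (G 0 (M 0)) ^ 2 + ∑ M ∈ tables a c, (G 1 (M 1)) ^ 2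
        + ∑ M ∈ tables a c, (G 2 (M 2)) ^ 2 := by
    simp only [Fin.sum_univ_three, Finset.sum_add_distrib]
  rw [hexp, hexp2]
  have h3 : 0 ≤ (N : ℝ) * ((∑ M ∈ tables a c, (G 0 (M 0)) ^ 2 + ∑ M ∈ tables a c, (G 1 (M 1)) ^ 2
        + ∑ M ∈ tables a c, (G 2 (M 2)) ^ 2)
        - 2 * (∑ M ∈ tables a c, G 0 (M 0) * G 1 (M 1) + ∑ M ∈ tables a c, G 0 (M 0) * G 2 (M 2)
          + ∑ M ∈ tables a c, G 1 (M 1) * G 2 (M 2))) := by
    calc (0 : ℝ) ≤ _ := hform
      _ = _ := by ring
  have h4 := nonneg_of_mul_nonneg_right h3 hNpos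
  linarith

end Star

end Vale.Agent.Lib.P328
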