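import Vale.Agent.Lib.P328.Port

/-!
# Reduction of the three-row inequality to finitely many canonical cases
-/

namespace Vale.Agent.Lib.P328

open Finset Cert

set_option linter.unusedSectionVars false

section Canon

variable {C : Type*} [Fintype C] [DecidableEq C]

/-- Relabelling the three rows. -/
theorem star_transport {R' R'' : Type*} [Fintype R'] [DecidableEq R'] [Fintype R'']
    [DecidableEq R''] (e : R' ≃ R'') (r : R' → ℕ) (c : C → ℕ)
    (h : Star (fun k => r (e.symm k)) c) : Star r c := by
  intro G hG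
  have hsum : ∀ F : (R' → C → ℕ) → ℝ, ∑ M ∈ tables r c, F M
      = ∑ M ∈ tables (fun k => r (e.symm k)) c, F (fun i => M (e i)) := by
    intro F
    apply Finset.sum_nbij' (fun M k => M (e.symm k)) (fun M i => M (e i))
    · intro M hM
      obtain ⟨h1, h2⟩ := mem_tables.1 hM
      rw [mem_tables]
      refine ⟨fun k => h1 _, fun z => ?_⟩
      rw [← h2 z]
      exact Equiv.sum_comp e.symm (fun i => M i z)
    · intro M hM
      obtain ⟨h1, h2⟩ := mem_tables.1 hM
      rw [mem_tables]
      refine ⟨fun i => ?_, fun z => ?_⟩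
      · have := h1 (e i)
        simpa using this
      · rw [← h2 z]
        exact Equiv.sum_comp e (fun k => M k z)
    · intro M _
      funext i
      simp
    · intro M _
      funext k
      simp
    · intro M _
      simp
  have hG' : ∀ k, ∑ M ∈ tables (fun k => r (e.symm k)) c, G (e.symm k) (M k) = 0 := by
    intro k
    have := hG (e.symm k)
    rw [hsum] at this
    simpa using this
  have h1 := h (fun k => G (e.symm k)) hG'
  rw [hsum, hsum]
  have e1 : ∀ M : R'' → C → ℕ, ∑ a, G a (M (e a)) = ∑ k, G (e.symm k) (M k) := by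
    intro M
    rw [← Equiv.sum_comp e]
    simp
  have e2 : ∀ M : R'' → C → ℕ, ∑ a, (G a (M (e a))) ^ 2 = ∑ k, (G (e.symm k) (M k)) ^ 2 := by
    intro M
    rw [← Equiv.sum_comp e]
    simp
  simp only [e1, e2]
  exact h1

/-- A row with sum zero makes the inequality trivial. -/
theorem star_of_zero {a : Fin 3 → ℕ} (h0 : a 0 = 0) (c : C → ℕ) : Star a c := by
  intro G hG
  by_cases hT : tables a c = ∅
  · simp [hT]
  have hzero : ∀ M ∈ tables a c, M 0 = fun _ => 0 := by
    intro M hM
    obtain ⟨h1, _⟩ := mem_tables.1 hM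
    funext z
    have h2 := h1 0
    rw [h0] at h2
    exact (Finset.sum_eq_zero_iff.1 h2) z (mem_univ z)
  have hg : G 0 (fun _ => 0) = 0 := by
    have h1 := hG 0
    rw [Finset.sum_congr rfl (fun M hM => by rw [hzero M hM])] at h1
    rw [Finset.sum_const, nsmul_eq_mul] at h1
    have hne : ((tables a c).card : ℝ) ≠ 0 := by
      have : 0 < (tables a c).card := Finset.card_pos.2 (Finset.nonempty_iff_ne_empty.2 hT)
      positivity
    exact (mul_eq_zero.1 h1).resolve_left hne
  rw [Finset.mul_sum]
  apply Finset.sum_le_sum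
  intro M hM
  simp only [Fin.sum_univ_three, hzero M hM, hg]
  nlinarith [sq_nonneg (G 1 (M 1) - G 2 (M 2))]

end Canon

section Parts

/-- The partitions of `n` with parts at most `mx`, by decreasing parts; `f` is fuel. -/
def partsAux : ℕ → ℕ → ℕ → List (List ℕ)
  | 0, n, _ => if n = 0 then [[]] else []
  | f + 1, n, mx =>
    match n with
    | 0 => [[]]
    | n' + 1 =>
      (List.range (Nat.min mx (n' + 1))).reverse.flatMap fun k =>
        (partsAux f (n' - k) (k + 1)).map ((k + 1) :: ·)

/-- The partitions of `n`. -/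
def parts (n : ℕ) : List (List ℕ) := partsAux n n n

theorem mem_partsAux : ∀ (f n mx : ℕ) (S : List ℕ), n ≤ f → S.Pairwise (· ≥ ·) →
    (∀ x ∈ S, 0 < x ∧ x ≤ mx) → S.sum = n → S ∈ partsAux f n mx := by
  intro f
  induction f with
  | zero =>
    intro n mx S hn _ hpos hsum
    have hn0 : n = 0 := by omega
    subst hn0
    cases S with
    | nil => simp [partsAux]
    | cons h t =>
      have := (hpos h (by simp)).1
      simp only [List.sum_cons] at hsum
      omega
  | succ f ih =>
    intro n mx S hn hpw hpos hsum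
    cases S with
    | nil =>
      simp only [List.sum_nil] at hsum
      subst hsum
      simp [partsAux]
    | cons h t =>
      have hh := hpos h (by simp)
      simp only [List.sum_cons] at hsum
      obtain ⟨n', rfl⟩ : ∃ n', n = n' + 1 := ⟨n - 1, by omega⟩
      simp only [partsAux, List.mem_flatMap, List.mem_reverse, List.mem_range, List.mem_map]
      refine ⟨h - 1, ?_, t, ?_, ?_⟩
      · have : h ≤ Nat.min mx (n' + 1) := Nat.le_min.2 ⟨hh.2, by omega⟩
        omega
      · apply ih _ _ _ (by omega) (List.pairwise_cons.1 hpw).2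
        · intro x hx
          refine ⟨(hpos x (by simp [hx])).1, ?_⟩
          have := (List.pairwise_cons.1 hpw).1 x hx
          omega
        · omega
      · have : h - 1 + 1 = h := by omega
        rw [this]

/-- The check passes for some certificate. -/
def Ok (S : List ℕ) (a0 a1 a2 : ℕ) : Prop :=
  ∃ (s eps base bias K W : ℕ) (rows : List ℕ), check S a0 a1 a2 s eps base bias K W rows = true

/-- All canonical cases with row sums at most `Bd` pass the check. -/
def LocalOK (Bd : ℕ) : Prop :=
  ∀ a0 a1 a2, 1 ≤ a0 → a0 ≤ a1 → a1 ≤ a2 → a2 ≤ Bd → ∀ S ∈ parts (a0 + a1 + a2), Ok S a0 a1 a2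

end Parts

section Main

variable {C : Type*} [Fintype C] [DecidableEq C]

/-- The three-row inequality for sorted rows. -/
theorem star_sorted {Bd : ℕ} (hBd : LocalOK Bd) {a : Fin 3 → ℕ} (hmono : Monotone a)
    (ha : a 2 ≤ Bd) (c : C → ℕ) : Star a c := by
  classical
  by_cases h0 : a 0 = 0
  · exact star_of_zero h0 c
  by_cases hsum : ∑ i, a i = ∑ z, c z
  swap
  · intro G _
    have hT : tables a c = ∅ := by
      apply Finset.eq_empty_of_forall_notMem
      intro M hM
      obtain ⟨h1, h2⟩ := mem_tables.1 hM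
      apply hsum
      rw [← Finset.sum_congr rfl (fun i _ => h1 i), ← Finset.sum_congr rfl (fun z _ => h2 z),
        Finset.sum_comm]
    simp [hT]
  -- the list of columns
  let rel : C → C → Prop := fun z z' => c z' ≤ c z
  haveI : DecidableRel rel := fun z z' => Nat.decLe _ _
  haveI : IsTotal C rel := ⟨fun z z' => le_total _ _⟩
  haveI : IsTrans C rel := ⟨fun _ _ _ h1 h2 => le_trans h2 h1⟩
  let l0 : List C := (univ.filter fun z => c z ≠ 0).toList
  let l : List C := l0.insertionSort rel
  have hperm : l.Perm l0 := List.perm_insertionSort rel l0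
  have hnd : l.Nodup := hperm.nodup_iff.2 (Finset.nodup_toList _)
  have hmem : ∀ z, z ∈ l ↔ c z ≠ 0 := by
    intro z
    rw [hperm.mem_iff, Finset.mem_toList]
    simp
  have hsupp : ∀ z, c z ≠ 0 → z ∈ l := fun z hz => (hmem z).2 hz
  have hsorted : l.Pairwise rel := List.pairwise_insertionSort rel l0
  have hS1 : (l.map c).Pairwise (· ≥ ·) := by
    rw [List.pairwise_map]
    exact hsorted
  have hSsum : (l.map c).sum = a 0 + a 1 + a 2 := by
    rw [← sum_eq_map_sum hnd c, ← hsum, Fin.sum_univ_three]
    intro z hz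
    by_contra hne
    exact hz ((hmem z).2 hne)
  have hS2 : ∀ x ∈ l.map c, 0 < x ∧ x ≤ a 0 + a 1 + a 2 := by
    intro x hx
    obtain ⟨z, hz, rfl⟩ := List.mem_map.1 hx
    refine ⟨Nat.pos_of_ne_zero ((hmem z).1 hz), ?_⟩
    rw [← hSsum]
    exact List.single_le_sum (by simp) _ hx
  have hpartS : l.map c ∈ parts (a 0 + a 1 + a 2) :=
    mem_partsAux _ _ _ _ le_rfl hS1 hS2 hSsum
  have h01 : a 0 ≤ a 1 := hmono (by decide)
  have h12 : a 1 ≤ a 2 := hmono (by decide)
  obtain ⟨s, eps, base, bias, K, W, rows, hc⟩ :=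
    hBd (a 0) (a 1) (a 2) (Nat.pos_of_ne_zero h0) h01 h12 ha _ hpartS
  exact star_of_check hnd hsupp hc

/-- **The three-row inequality**, for any three rows with sums at most `Bd`. -/
theorem star_of_localOK {Bd : ℕ} (hBd : LocalOK Bd) {R' : Type*} [Fintype R'] [DecidableEq R']
    (hcard : Fintype.card R' = 3) (r : R' → ℕ) (hr : ∀ i, r i ≤ Bd) (c : C → ℕ) : Star r c := by
  let e0 : R' ≃ Fin 3 := Fintype.equivFinOfCardEq hcard
  let a0 : Fin 3 → ℕ := fun k => r (e0.symm k)
  let σ := Tuple.sort a0
  let e : R' ≃ Fin 3 := e0.trans σ.symm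
  apply star_transport e
  apply star_sorted hBd (a := fun k => r (e.symm k))
  · exact Tuple.monotone_sort a0
  · exact hr _

end Main

end Vale.Agent.Lib.P328
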