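import Mathlib

/-!
# A certificate checker for the local three-row inequality

Everything in the first section is written to run fast inside `decide +kernel`: explicit structural
recursion, `Nat` primitives and the combinator `force`, which evaluates a number before passing it
on. Dot products are read off from a single product of two large numbers.
-/

namespace Vale.Agent.Lib.P328.Cert

/-- Evaluate a natural number before passing it on. -/
@[inline] def force {α : Type} (x : ℕ) (k : ℕ → α) : α :=
  match x with
  | 0 => k 0
  | n + 1 => k (Nat.succ n)

theorem force_eq {α : Type} (x : ℕ) (k : ℕ → α) : force x k = k x := by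
  cases x <;> rfl

/-- All vectors of the length of `s`, below `s` entrywise, with entry sum `a`. -/
def bounded : List ℕ → ℕ → List (List ℕ)
  | [], 0 => [[]]
  | [], _ + 1 => []
  | h :: t, a =>
    (List.range (Nat.min h a + 1)).flatMap fun v => (bounded t (a - v)).map (v :: ·)

/-- `x + y ≤ s` entrywise. -/
def compat : List ℕ → List ℕ → List ℕ → Bool
  | x :: xs, y :: ys, h :: t =>
    match Nat.ble (Nat.add x y) h with
    | true => compat xs ys t
    | false => false
  | _, _, _ => true

/-- `acc` plus the number of `y` in the list compatible with `x`. -/
def cnt (s x : List ℕ) : List (List ℕ) → ℕ → ℕ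
  | [], acc => acc
  | y :: L, acc =>
    match compat x y s with
    | true => force (Nat.succ acc) (cnt s x L)
    | false => cnt s x L acc

/-- A row value `vec` of the row number `tag`, with the number `w` of tables containing it. -/
structure Node where
  tag : ℕ
  vec : List ℕ
  w : ℕ

/-- The nodes of one row. -/
def nodesOf (s : List ℕ) (tag : ℕ) (L other : List (List ℕ)) : List Node :=
  L.map fun x => force (cnt s x other 0) fun c => ⟨tag, x, c⟩

/-- `acc` plus the sum of the weights. -/
def sumW : List Node → ℕ → ℕ
  | [], acc => acc
  | u :: us, acc => force (Nat.add u.w acc) (sumW us)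

/-- The first `k` digits of `P` in the given base. -/
def digs (base : ℕ) : ℕ → ℕ → List ℕ
  | 0, _ => []
  | k + 1, P =>
    force (Nat.mod P base) fun dg =>
    force (Nat.div P base) fun q =>
    dg :: digs base k q

/-- Horner evaluation of a digit list in base `B`. -/
def pack (B : ℕ) : List ℕ → ℕ
  | [] => 0
  | a :: l => Nat.add a (Nat.mul B (pack B l))

/-- `acc` plus the sum of a list. -/
def sumL : List ℕ → ℕ → ℕ
  | [], acc => acc
  | a :: l, acc => force (Nat.add a acc) (sumL l)

/-- All entries are below `b`. -/
def allLt (b : ℕ) : List ℕ → Bool
  | [] => true
  | a :: l =>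
    match Nat.ble (Nat.succ a) b with
    | true => allLt b l
    | false => false

/-- A node with one row of the certificate, in digit form and packed. -/
structure Rec where
  u : Node
  l : List ℕ
  A : ℕ
  R : ℕ
  σ : ℕ

/-- Decode one row of the certificate. -/
def mkRec (base B K b0 : ℕ) (u : Node) (P : ℕ) : Option Rec :=
  let l := digs base K P
  match allLt b0 l with
  | false => none
  | true =>
    force (pack B l) fun A =>
    force (pack B l.reverse) fun R =>
    force (sumL l 0) fun σ =>
    some ⟨u, l, A, R, σ⟩

/-- Decode all rows of the certificate. -/
def mkRecs (base B K b0 : ℕ) : List Node → List ℕ → Option (List Rec)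
  | [], [] => some []
  | u :: us, P :: Ps =>
    match mkRec base B K b0 u P with
    | none => none
    | some r =>
      match mkRecs base B K b0 us Ps with
      | none => none
      | some rs => some (r :: rs)
  | _, _ => none

/-- The unsigned dot product of two certificate rows, read off from one product. -/
@[inline] def fdot (B Bk : ℕ) (p q : Rec) : ℕ :=
  Nat.mod (Nat.div (Nat.mul p.A q.R) Bk) B

/-- The off-diagonal test for two nodes. -/
def offOK (s : List ℕ) (N S eps b KB B Bk : ℕ) (p q : Rec) : Bool :=
  force (fdot B Bk p q) fun F =>
  match Nat.beq p.u.tag q.u.tag with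
  | true =>
    force (Nat.add (Nat.mul S (Nat.mul 2 (Nat.mul p.u.w q.u.w))) (Nat.mul b (Nat.add p.σ q.σ)))
      fun pos =>
    force (Nat.add F KB) fun neg =>
      match Nat.ble pos (Nat.add neg eps) with
      | true => Nat.ble neg (Nat.add pos eps)
      | false => false
  | false =>
    force (Nat.mul b (Nat.add p.σ q.σ)) fun pos =>
    force (match compat p.u.vec q.u.vec s with
           | true => Nat.add (Nat.mul S N) (Nat.add F KB)
           | false => Nat.add F KB) fun neg =>
      match Nat.ble pos (Nat.add neg eps) with
      | true => Nat.ble neg (Nat.add pos eps)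
      | false => false

/-- The diagonal test for a node. -/
def diagOK (N S eps D b KB B Bk : ℕ) (p : Rec) : Bool :=
  force (fdot B Bk p p) fun F =>
    Nat.ble (Nat.add (Nat.add F KB) (Nat.mul (Nat.sub D 1) eps))
      (Nat.add (Nat.mul S (Nat.add (Nat.mul N p.u.w) (Nat.mul 2 (Nat.mul p.u.w p.u.w))))
        (Nat.mul b (Nat.mul 2 p.σ)))

/-- All elements of a list pass a Boolean test. -/
def allB {α : Type} (f : α → Bool) : List α → Bool
  | [] => true
  | a :: as =>
    match f a with
    | true => allB f as
    | false => false

/-- The test for all nodes and all pairs of nodes. -/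
def chk (s : List ℕ) (N S eps D b KB B Bk : ℕ) : List Rec → Bool
  | [] => true
  | p :: rest =>
    match diagOK N S eps D b KB B Bk p with
    | true =>
      match allB (offOK s N S eps b KB B Bk p) rest with
      | true => chk s N S eps D b KB B Bk rest
      | false => false
    | false => false

/-- The nodes of the three rows. -/
def nodes (s : List ℕ) (a b d : ℕ) : List Node :=
  nodesOf s 0 (bounded s a) (bounded s b) ++ nodesOf s 1 (bounded s b) (bounded s a)
    ++ nodesOf s 2 (bounded s d) (bounded s a)

/-- The number of tables, as a sum of weights. -/
def total (s : List ℕ) (a b : ℕ) : ℕ := sumW (nodesOf s 0 (bounded s a) (bounded s b)) 0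

/-- The whole check. `S`, `eps`: the scale and the error bound of the certificate; `base`, `bias`:
its digit encoding; `K`: its number of columns; `W`: the bit size of the base for the dot products;
`rows`: its rows. -/
def check (s : List ℕ) (a b d S eps base bias K W : ℕ) (rows : List ℕ) : Bool :=
  force (Nat.pow 2 W) fun B =>
  force (Nat.pow B (Nat.sub K 1)) fun Bk =>
  match Nat.ble 1 S, Nat.ble 1 K, Nat.ble (Nat.succ (Nat.mul K (Nat.mul base base))) B with
  | true, true, true =>
    match mkRecs base B K base (nodes s a b d) rows with
    | none => false
    | some rs =>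
      chk s (total s a b) S eps (nodes s a b d).length bias (Nat.mul K (Nat.mul bias bias)) B Bk rs
  | _, _, _ => false

end Vale.Agent.Lib.P328.Cert
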