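import Vale.Agent.Lib.P335.Knabe

/-!
# The abstract gap lemmas, for a finset in a possibly infinite type
-/

namespace Vale.Agent.Lib.P328

open Finset Vale.Agent.Lib.P335

set_option linter.unusedSectionVars false

section Sub

variable {T K : Type*} [DecidableEq K]

/-- Conditional expectations on the finset and on its coercion to a type agree. -/
theorem cexp_coe (S : Finset T) (κ : T → K) (h : T → ℝ) (x : S) :
    cexp (univ : Finset S) (fun y : S => κ y.1) (fun y : S => h y.1) x = cexp S κ h x.1 := by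
  classical
  have hmap : (sfib (univ : Finset S) (fun y : S => κ y.1) x).map (Function.Embedding.subtype _)
      = sfib S κ x.1 := by
    ext y
    simp only [mem_map, mem_sfib, mem_univ, true_and, Function.Embedding.subtype_apply,
      Subtype.exists, exists_and_right, exists_eq_right]
    constructor
    · rintro ⟨hy, h2⟩
      exact ⟨hy, h2⟩
    · rintro ⟨hy, h2⟩
      exact ⟨hy, h2⟩
  unfold cexp
  rw [← hmap, Finset.sum_map, Finset.card_map]
  simp

variable {R : Type*} [Fintype R] [DecidableEq R]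

theorem sum_dd_sq' (S : Finset T) (κ : Finset R → T → K) (e : Finset R) (f : T → ℝ) :
    ∑ x ∈ S, (dd S κ e f x) ^ 2 = ∑ x ∈ S, (f x) ^ 2 - ∑ x ∈ S, (cexp S (κ e) f x) ^ 2 := by
  have h1 := sum_mul_cexp_of_measurable (S := S) (κ := κ e) (cexp_measurable f) f
  rw [eq_sub_iff_add_eq, ← Finset.sum_add_distrib]
  have e1 : ∀ x, (dd S κ e f x) ^ 2 + (cexp S (κ e) f x) ^ 2
      = (f x) ^ 2 - 2 * (cexp S (κ e) f x * f x) + 2 * (cexp S (κ e) f x * cexp S (κ e) f x) := by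
    intro x
    unfold dd
    ring
  simp_rw [e1]
  rw [Finset.sum_add_distrib, Finset.sum_sub_distrib, ← Finset.mul_sum, ← Finset.mul_sum, h1]
  ring

theorem sum_dd_mul' (S : Finset T) (κ : Finset R → T → K) (e : Finset R) (f : T → ℝ) :
    ∑ x ∈ S, f x * dd S κ e f x = ∑ x ∈ S, (dd S κ e f x) ^ 2 := by
  have := sum_sub_cexp_mul (S := S) (κ := κ e) f
  unfold dd
  rw [← this]
  apply Finset.sum_congr rfl
  intros
  ring

/-- The gap lemma for a finset in any type. -/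
theorem gap_of_square' (S : Finset T) (κ : Finset R → T → K) (P : Finset (Finset R))
    (hG2 : ∀ f : T → ℝ, ∑ e ∈ P, ∑ x ∈ S, (dd S κ e f x) ^ 2
      ≤ ∑ x ∈ S, (∑ e ∈ P, dd S κ e f x) ^ 2)
    (hker : ∀ f : T → ℝ, (∀ e ∈ P, ∀ x ∈ S, dd S κ e f x = 0) → ∀ x ∈ S, ∀ y ∈ S, f x = f y)
    (f : T → ℝ) (hf : ∑ x ∈ S, f x = 0) :
    ∑ x ∈ S, (f x) ^ 2 ≤ ∑ e ∈ P, ∑ x ∈ S, (dd S κ e f x) ^ 2 := by
  classical
  let κ' : Finset R → S → K := fun e y => κ e y.1
  have hdd : ∀ (h : T → ℝ) (e : Finset R) (x : S),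
      dd (univ : Finset S) κ' e (fun y : S => h y.1) x = dd S κ e h x.1 := by
    intro h e x
    unfold dd
    rw [cexp_coe]
  let lift : (S → ℝ) → T → ℝ := fun g x => if hx : x ∈ S then g ⟨x, hx⟩ else 0
  have hlift : ∀ (g : S → ℝ), (fun y : S => lift g y.1) = g := by
    intro g
    funext y
    simp [lift, y.2]
  have hsum : ∀ φ : T → ℝ, ∑ x : S, φ x.1 = ∑ x ∈ S, φ x := fun φ => Finset.sum_coe_sort S φ
  have key := gap_of_square (univ : Finset S) κ' P ?_ ?_ (fun y : S => f y.1) ?_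
  · simp only [hdd] at key
    rw [hsum (fun x => (f x) ^ 2)] at key
    rw [Finset.sum_congr rfl (fun e _ => hsum (fun x => (dd S κ e f x) ^ 2)) ] at key
    exact key
  · intro g
    have h1 := hG2 (lift g)
    rw [← hlift g]
    simp only [hdd]
    rw [Finset.sum_congr rfl (fun e _ => hsum (fun x => (dd S κ e (lift g) x) ^ 2)),
      hsum (fun x => (∑ e ∈ P, dd S κ e (lift g) x) ^ 2)]
    exact h1
  · intro g hg x _ y _
    have h1 := hker (lift g) ?_ x.1 x.2 y.1 y.2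
    · simpa [lift, x.2, y.2] using h1
    · intro e he z hz
      have h2 := hg e he ⟨z, hz⟩ (mem_univ _)
      rw [← hlift g, hdd] at h2
      exact h2
  · rw [hsum f]
    exact hf

variable [DecidableEq T]

/-- From a gap for the mean-zero part on each coarse fiber to the square inequality on a coarse
block. -/
theorem square_of_block_gap' (S : Finset T) (κ : Finset R → T → K) (t : Finset R)
    (P : Finset (Finset R))
    (htower : ∀ e ∈ P, ∀ x y, κ e x = κ e y → κ t x = κ t y)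
    (hblock : ∀ x₀ ∈ S, ∀ g : T → ℝ, ∑ y ∈ sfib S (κ t) x₀, g y = 0 →
      ∑ y ∈ sfib S (κ t) x₀, (g y) ^ 2 ≤ ∑ e ∈ P, ∑ y ∈ sfib S (κ t) x₀, (dd S κ e g y) ^ 2)
    (f : T → ℝ) :
    ∑ e ∈ P, ∑ x ∈ S, (dd S κ e f x) ^ 2 ≤ ∑ x ∈ S, (∑ e ∈ P, dd S κ e f x) ^ 2 := by
  -- the mean-zero part on coarse fibers
  set f₀ : T → ℝ := fun x => f x - cexp S (κ t) f x with hf₀
  have hdd₀ : ∀ e ∈ P, ∀ x ∈ S, dd S κ e f₀ x = dd S κ e f x := by
    intro e he x hx
    unfold dd
    have h1 : cexp S (κ e) (cexp S (κ t) f) x = cexp S (κ t) f x := by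
      apply cexp_of_measurable _ hx
      intro y _ z _ h
      exact cexp_congr f (htower e he y z h)
    simp only [hf₀]
    rw [cexp_sub, h1]
    ring
  have hmean : ∀ x₀ ∈ S, ∑ y ∈ sfib S (κ t) x₀, f₀ y = 0 := by
    intro x₀ hx₀
    have hpos := fib_card_pos (S := S) (κ := κ t) hx₀
    have h1 : ∑ y ∈ sfib S (κ t) x₀, cexp S (κ t) f y
        = ((sfib S (κ t) x₀).card : ℝ) * cexp S (κ t) f x₀ := by
      rw [← nsmul_eq_mul, ← Finset.sum_const]
      apply Finset.sum_congr rfl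
      intro y hy
      exact cexp_congr f (mem_sfib.1 hy).2
    simp only [hf₀]
    rw [Finset.sum_sub_distrib, h1]
    unfold cexp
    field_simp
    ring
  -- global inequality
  have hglob : ∑ x ∈ S, (f₀ x) ^ 2 ≤ ∑ e ∈ P, ∑ x ∈ S, (dd S κ e f₀ x) ^ 2 := by
    have h1 : ∀ x₀ ∈ S, cexp S (κ t) (fun x => (f₀ x) ^ 2) x₀
        ≤ cexp S (κ t) (fun x => ∑ e ∈ P, (dd S κ e f₀ x) ^ 2) x₀ := by
      intro x₀ hx₀
      have hpos := fib_card_pos (S := S) (κ := κ t) hx₀
      unfold cexp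
      apply div_le_div_of_nonneg_right _ hpos.le
      have := hblock x₀ hx₀ f₀ (hmean x₀ hx₀)
      rw [Finset.sum_comm]
      exact this
    have h2 := Finset.sum_le_sum h1
    rw [sum_cexp, sum_cexp, Finset.sum_comm] at h2
    exact h2
  set h : T → ℝ := fun x => ∑ e ∈ P, dd S κ e f x with hh
  set W : ℝ := ∑ e ∈ P, ∑ x ∈ S, (dd S κ e f x) ^ 2 with hW
  have hW' : W = ∑ e ∈ P, ∑ x ∈ S, (dd S κ e f₀ x) ^ 2 := by
    rw [hW]
    apply Finset.sum_congr rfl
    intro e he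
    apply Finset.sum_congr rfl
    intro x hx
    rw [hdd₀ e he x hx]
  have hWnn : 0 ≤ W := Finset.sum_nonneg (fun e _ => Finset.sum_nonneg (fun x _ => sq_nonneg _))
  -- W equals the pairing of f₀ and h
  have hpair : W = ∑ x ∈ S, f₀ x * h x := by
    rw [hW']
    simp_rw [← sum_dd_mul']
    rw [Finset.sum_comm]
    apply Finset.sum_congr rfl
    intro x hx
    simp only [hh]
    rw [Finset.mul_sum]
    apply Finset.sum_congr rfl
    intro e he
    rw [hdd₀ e he x hx]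
  have hcs := Finset.sum_mul_sq_le_sq_mul_sq S f₀ h
  rw [← hpair] at hcs
  have hglob' : ∑ x ∈ S, (f₀ x) ^ 2 ≤ W := by rw [hW']; exact hglob
  have hh2 : 0 ≤ ∑ x ∈ S, (h x) ^ 2 := Finset.sum_nonneg (fun x _ => sq_nonneg _)
  by_cases hWz : W = 0
  · rw [hWz]
    exact hh2
  · have hWpos : 0 < W := lt_of_le_of_ne hWnn (Ne.symm hWz)
    have : W * W ≤ W * ∑ x ∈ S, (h x) ^ 2 := by
      calc W * W = W ^ 2 := by ring
        _ ≤ (∑ x ∈ S, (f₀ x) ^ 2) * ∑ x ∈ S, (h x) ^ 2 := hcs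
        _ ≤ W * ∑ x ∈ S, (h x) ^ 2 := mul_le_mul_of_nonneg_right hglob' hh2
    exact le_of_mul_le_mul_left this hWpos

end Sub

end Vale.Agent.Lib.P328
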