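import Vale.Agent.Lib.P328.Canon
import Vale.Agent.Lib.P335.MixAbstract

/-!
# The row-pair heat bath chain: gap and mixing
-/

namespace Vale.Agent.Lib.P328

open Finset Vale.Agent.Lib.P335

set_option linter.unusedSectionVars false

section Mix

variable {R C : Type} [Fintype R] [Fintype C] [DecidableEq R] [DecidableEq C]
  {r : R → ℕ} {c : C → ℕ}

theorem mem_fiberOf {e : Finset R} {X Y : Om r c} :
    Y ∈ fiberOf e X ↔ ∀ i, i ∉ e → Y.1 i = X.1 i := by
  simp [fiberOf]

theorem self_mem_fiberOf (e : Finset R) (X : Om r c) : X ∈ fiberOf e X :=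
  mem_fiberOf.2 fun _ _ => rfl

theorem fiberOf_eq {e : Finset R} {X Y : Om r c} (h : Y ∈ fiberOf e X) :
    fiberOf e Y = fiberOf e X := by
  ext Z
  rw [mem_fiberOf, mem_fiberOf]
  have h1 := mem_fiberOf.1 h
  constructor
  · intro h2 i hi
    rw [h2 i hi, h1 i hi]
  · intro h2 i hi
    rw [h2 i hi, h1 i hi]

theorem heatBath_symm (e : Finset R) (X Y : Om r c) : heatBath e X Y = heatBath e Y X := by
  unfold heatBath
  by_cases h : Y ∈ fiberOf e X
  · have h' : X ∈ fiberOf e Y := by
      rw [mem_fiberOf] at h ⊢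
      exact fun i hi => (h i hi).symm
    rw [if_pos h, if_pos h', fiberOf_eq h]
  · have h' : X ∉ fiberOf e Y := by
      intro h2
      apply h
      rw [mem_fiberOf] at h2 ⊢
      exact fun i hi => (h2 i hi).symm
    rw [if_neg h, if_neg h']

theorem heatBath_nonneg (e : Finset R) (X Y : Om r c) : 0 ≤ heatBath e X Y := by
  unfold heatBath
  split_ifs
  · positivity
  · exact le_rfl

theorem heatBath_sum (e : Finset R) (X : Om r c) : ∑ Y, heatBath e X Y = 1 := by
  unfold heatBath
  rw [Finset.sum_ite_mem, Finset.univ_inter, Finset.sum_const, nsmul_eq_mul]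
  have : ((fiberOf e X).card : ℝ) ≠ 0 := by
    have : 0 < (fiberOf e X).card := Finset.card_pos.2 ⟨X, self_mem_fiberOf e X⟩
    positivity
  field_simp

theorem card_pairs : (powersetCard 2 (univ : Finset R)).card = (Fintype.card R).choose 2 := by
  rw [card_powersetCard, card_univ]

theorem chain_symm (X Y : Om r c) : rowPairChain r c X Y = rowPairChain r c Y X := by
  unfold rowPairChain
  simp only [heatBath_symm _ X Y, eq_comm]

theorem chain_nonneg (X Y : Om r c) : 0 ≤ rowPairChain r c X Y := by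
  unfold rowPairChain
  have h1 : (0 : ℝ) ≤ if X = Y then 1 else 0 := by split_ifs <;> norm_num
  have h2 : 0 ≤ ∑ e ∈ powersetCard 2 (univ : Finset R), heatBath e X Y :=
    Finset.sum_nonneg fun e _ => heatBath_nonneg e X Y
  positivity

theorem chain_sum (hR : 2 ≤ Fintype.card R) (X : Om r c) : ∑ Y, rowPairChain r c X Y = 1 := by
  unfold rowPairChain
  rw [Finset.sum_add_distrib, ← Finset.mul_sum, ← Finset.mul_sum, ← Finset.mul_sum]
  have h1 : ∑ Y, (if X = Y then (1 : ℝ) else 0) = 1 := by simp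
  have h2 : ∑ Y, ∑ e ∈ powersetCard 2 (univ : Finset R), heatBath e X Y
      = ((Fintype.card R).choose 2 : ℝ) := by
    rw [Finset.sum_comm, Finset.sum_congr rfl fun e _ => heatBath_sum e X, Finset.sum_const,
      card_pairs, nsmul_eq_mul, mul_one]
  have hM : ((Fintype.card R).choose 2 : ℝ) ≠ 0 := by
    have : 0 < (Fintype.card R).choose 2 := Nat.choose_pos hR
    positivity
  rw [h1, h2]
  field_simp
  norm_num

theorem chain_lazy (X : Om r c) : 1 / 2 ≤ rowPairChain r c X X := by
  unfold rowPairChain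
  have h2 : 0 ≤ ∑ e ∈ powersetCard 2 (univ : Finset R), heatBath e X X :=
    Finset.sum_nonneg fun e _ => heatBath_nonneg e X X
  have h3 : 0 ≤ (1 / 2 : ℝ) * ((1 / ((Fintype.card R).choose 2 : ℝ))
        * ∑ e ∈ powersetCard 2 (univ : Finset R), heatBath e X X) := by positivity
  simp only [if_true]
  linarith

theorem tables_subset (r : R → ℕ) (c : C → ℕ) :
    tables r c ⊆ Fintype.piFinset fun i => Fintype.piFinset fun _ : C => Finset.range (r i + 1) := by
  unfold tables
  exact Finset.filter_subset _ _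

/-- Extension by zero of a function on the tables. -/
noncomputable def lift (f : Om r c → ℝ) : (R → C → ℕ) → ℝ :=
  fun x => if h : x ∈ tables r c then f ⟨x, h⟩ else 0

theorem lift_coe (f : Om r c → ℝ) (X : Om r c) : lift f X.1 = f X := by
  simp [lift, X.2]

theorem heatBath_mulVec (e : Finset R) (f : Om r c → ℝ) (X : Om r c) :
    (heatBath e).mulVec f X = cexp (tables r c) (keyOut e) (lift f) X.1 := by
  have h1 := cexp_coe (tables r c) (keyOut e) (lift f) X
  rw [← h1]
  have h2 : (fun y : Om r c => lift f y.1) = f := funext fun y => lift_coe f y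
  rw [h2]
  have h3 : sfib (univ : Finset (Om r c)) (fun y : Om r c => keyOut e y.1) X = fiberOf e X := by
    ext Y
    rw [mem_sfib, mem_fiberOf, keyOut_eq]
    simp
  unfold cexp
  rw [h3]
  simp only [Matrix.mulVec, dotProduct, heatBath]
  have h4 : ∀ Y : Om r c, (if Y ∈ fiberOf e X then 1 / ((fiberOf e X).card : ℝ) else 0) * f Y
      = if Y ∈ fiberOf e X then f Y / ((fiberOf e X).card : ℝ) else 0 := by
    intro Y
    split_ifs
    · ring
    · ring
  simp only [h4]
  rw [Finset.sum_ite_mem, Finset.univ_inter, Finset.sum_div]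

/-- The gap on the type of tables. -/
theorem gap_om (hstar : ∀ t : Finset R, t.card = 3 → ∀ x₀ ∈ tables r c, Star (rT t r) (cT t x₀))
    (f : Om r c → ℝ) (hf : ∑ X, f X = 0) :
    ∑ X, f X ^ 2
      ≤ ∑ e ∈ powersetCard 2 (univ : Finset R), ∑ X, (f X - (heatBath e).mulVec f X) ^ 2 := by
  have hsum : ∀ φ : (R → C → ℕ) → ℝ, ∑ X : Om r c, φ X.1 = ∑ x ∈ tables r c, φ x :=
    fun φ => Finset.sum_coe_sort (tables r c) φ
  have h1 := gap_of_star r c hstar (lift f) (by
    rw [← hsum]
    simp only [lift_coe]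
    exact hf)
  rw [← hsum (fun x => (lift f x) ^ 2)] at h1
  simp only [lift_coe] at h1
  refine h1.trans (le_of_eq ?_)
  refine Finset.sum_congr rfl fun e _ => ?_
  rw [← hsum (fun x => (dd (tables r c) keyOut e (lift f) x) ^ 2)]
  refine Finset.sum_congr rfl fun X _ => ?_
  unfold dd
  rw [lift_coe, heatBath_mulVec]

/-- The pairing of `f` with a heat bath step. -/
theorem sum_mul_heatBath (e : Finset R) (f : Om r c → ℝ) :
    ∑ X, f X * (heatBath e).mulVec f X
      = ∑ X, f X ^ 2 - ∑ X, (f X - (heatBath e).mulVec f X) ^ 2 := by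
  have hsum : ∀ φ : (R → C → ℕ) → ℝ, ∑ X : Om r c, φ X.1 = ∑ x ∈ tables r c, φ x :=
    fun φ => Finset.sum_coe_sort (tables r c) φ
  have h1 := sum_dd_mul' (tables r c) keyOut e (lift f)
  rw [← hsum (fun x => lift f x * dd (tables r c) keyOut e (lift f) x),
    ← hsum (fun x => (dd (tables r c) keyOut e (lift f) x) ^ 2)] at h1
  have h2 : ∀ X : Om r c, dd (tables r c) keyOut e (lift f) X.1 = f X - (heatBath e).mulVec f X := by
    intro X
    unfold dd
    rw [lift_coe, heatBath_mulVec]
  simp only [h2, lift_coe] at h1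
  have h3 : ∑ X, f X * (f X - (heatBath e).mulVec f X)
      = ∑ X, f X ^ 2 - ∑ X, f X * (heatBath e).mulVec f X := by
    rw [← Finset.sum_sub_distrib]
    refine Finset.sum_congr rfl fun X _ => ?_
    ring
  rw [h3] at h1
  linarith

theorem chain_mulVec (f : Om r c → ℝ) (X : Om r c) :
    (rowPairChain r c).mulVec f X = (1 / 2 : ℝ) * f X
      + (1 / 2 : ℝ) * ((1 / ((Fintype.card R).choose 2 : ℝ))
        * ∑ e ∈ powersetCard 2 (univ : Finset R), (heatBath e).mulVec f X) := by
  have h : ∀ Y, rowPairChain r c X Y * f Y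
      = (1 / 2 : ℝ) * ((if X = Y then 1 else 0) * f Y)
        + (1 / 2 : ℝ) * ((1 / ((Fintype.card R).choose 2 : ℝ))
          * ∑ e ∈ powersetCard 2 (univ : Finset R), heatBath e X Y * f Y) := by
    intro Y
    unfold rowPairChain
    rw [← Finset.sum_mul]
    ring
  simp only [Matrix.mulVec, dotProduct, h]
  rw [Finset.sum_add_distrib, ← Finset.mul_sum, ← Finset.mul_sum, ← Finset.mul_sum]
  congr 2
  · simp
  · congr 1
    rw [Finset.sum_comm]

/-- The Dirichlet gap of the chain. -/
theorem chain_gap (hR : 2 ≤ Fintype.card R)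
    (hstar : ∀ t : Finset R, t.card = 3 → ∀ x₀ ∈ tables r c, Star (rT t r) (cT t x₀))
    (f : Om r c → ℝ) (hf : ∑ X, f X = 0) :
    ∑ X, f X * (rowPairChain r c).mulVec f X
      ≤ (1 - 1 / (2 * ((Fintype.card R).choose 2 : ℝ))) * ∑ X, f X ^ 2 := by
  have hMpos : (0 : ℝ) < ((Fintype.card R).choose 2 : ℝ) := by
    have : 0 < (Fintype.card R).choose 2 := Nat.choose_pos hR
    exact_mod_cast this
  set M : ℝ := ((Fintype.card R).choose 2 : ℝ) with hM
  set Q := ∑ X, f X ^ 2 with hQ
  have h1 : ∑ X, f X * (rowPairChain r c).mulVec f X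
      = (1 / 2 : ℝ) * Q + (1 / 2 : ℝ) * ((1 / M)
        * ∑ e ∈ powersetCard 2 (univ : Finset R), ∑ X, f X * (heatBath e).mulVec f X) := by
    simp only [chain_mulVec, mul_add]
    rw [Finset.sum_add_distrib]
    congr 1
    · rw [hQ, Finset.mul_sum]
      refine Finset.sum_congr rfl fun X _ => ?_
      ring
    · rw [← hM]
      have e0 : (1 / 2 : ℝ) * ((1 / M)
          * ∑ e ∈ powersetCard 2 (univ : Finset R), ∑ X, f X * (heatBath e).mulVec f X)
          = ∑ X, (1 / 2 : ℝ) * ((1 / M)
            * ∑ e ∈ powersetCard 2 (univ : Finset R), f X * (heatBath e).mulVec f X) := by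
        rw [Finset.sum_comm, Finset.mul_sum, Finset.mul_sum]
      rw [e0]
      refine Finset.sum_congr rfl fun X _ => ?_
      rw [← Finset.mul_sum]
      ring
  have h2 : ∑ e ∈ powersetCard 2 (univ : Finset R), ∑ X, f X * (heatBath e).mulVec f X
      = M * Q - ∑ e ∈ powersetCard 2 (univ : Finset R), ∑ X, (f X - (heatBath e).mulVec f X) ^ 2 := by
    simp only [sum_mul_heatBath]
    rw [Finset.sum_sub_distrib, Finset.sum_const, card_pairs, nsmul_eq_mul]
  have h3 := gap_om hstar f hf
  rw [h1, h2]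
  have hne : M ≠ 0 := hMpos.ne'
  have e : (1 / 2 : ℝ) * Q + (1 / 2 : ℝ) * ((1 / M) * (M * Q
      - ∑ e ∈ powersetCard 2 (univ : Finset R), ∑ X, (f X - (heatBath e).mulVec f X) ^ 2))
      = Q - (1 / (2 * M)) * ∑ e ∈ powersetCard 2 (univ : Finset R),
          ∑ X, (f X - (heatBath e).mulVec f X) ^ 2 := by
    field_simp
    ring
  rw [e]
  have h4 : (1 / (2 * M)) * Q ≤ (1 / (2 * M)) * ∑ e ∈ powersetCard 2 (univ : Finset R),
      ∑ X, (f X - (heatBath e).mulVec f X) ^ 2 :=
    mul_le_mul_of_nonneg_left h3 (by positivity)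
  have e2 : (1 - 1 / (2 * M)) * Q = Q - (1 / (2 * M)) * Q := by ring
  rw [e2]
  linarith

/-- Total variation decay for the chain. -/
theorem chain_tv (hR : 2 ≤ Fintype.card R)
    (hstar : ∀ t : Finset R, t.card = 3 → ∀ x₀ ∈ tables r c, Star (rT t r) (cT t x₀))
    (X : Om r c) (t : ℕ) :
    ((1 / 2 : ℝ) * ∑ Y, |(rowPairChain r c ^ t) X Y - 1 / (Fintype.card (Om r c) : ℝ)|) ^ 2
      ≤ (1 / 4 : ℝ) * (Fintype.card (Om r c) : ℝ)
        * (1 - 1 / (2 * ((Fintype.card R).choose 2 : ℝ))) ^ t := by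
  have : Nonempty (Om r c) := ⟨X⟩
  have hMpos : (1 : ℝ) ≤ ((Fintype.card R).choose 2 : ℝ) := by
    have : 0 < (Fintype.card R).choose 2 := Nat.choose_pos hR
    exact_mod_cast this
  apply tv_sq_le (rowPairChain r c) chain_symm chain_nonneg (chain_sum hR) chain_lazy
  · have : 1 / (2 * ((Fintype.card R).choose 2 : ℝ)) ≤ 1 := by
      rw [div_le_one (by positivity)]
      linarith
    linarith
  · exact chain_gap hR hstar

end Mix

end Vale.Agent.Lib.P328
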