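import Vale.Agent.Lib.P328.Gap
import Vale.Agent.Lib.P328.Bridge
import Vale.Agent.Lib.P335.Bipartite

/-!
# From the three-row inequality to a spectral gap for the row-pair heat bath on integer tables
-/

namespace Vale.Agent.Lib.P328

open Finset Vale.Agent.Lib.P335

set_option linter.unusedSectionVars false

section Port

variable {R C : Type*} [Fintype R] [DecidableEq R] [Fintype C] [DecidableEq C]

/-- Forget the rows in `Q`. -/
def keyOut (Q : Finset R) (M : R → C → ℕ) : R → C → ℕ :=
  fun i => if i ∈ Q then fun _ => 0 else M i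

theorem keyOut_eq {Q : Finset R} {M N : R → C → ℕ} :
    keyOut Q M = keyOut Q N ↔ ∀ i, i ∉ Q → M i = N i := by
  constructor
  · intro h i hi
    have := congrFun h i
    simpa [keyOut, hi] using this
  · intro h
    funext i
    by_cases hi : i ∈ Q
    · simp [keyOut, hi]
    · simp [keyOut, hi, h i hi]

theorem keyOut_tower {Q Q' : Finset R} (h : Q ⊆ Q') {M N : R → C → ℕ}
    (hk : keyOut Q M = keyOut Q N) : keyOut Q' M = keyOut Q' N := by
  rw [keyOut_eq] at hk ⊢
  intro i hi
  exact hk i (fun hq => hi (h hq))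

variable {r : R → ℕ} {c : C → ℕ}

/-- Take the rows in `e` from `N` and the other rows from `y`. -/
def hyb (e : Finset R) (N y : R → C → ℕ) : R → C → ℕ := fun i => if i ∈ e then N i else y i

theorem hyb_mem {e f : Finset R} (hd : Disjoint e f) {N x y : R → C → ℕ}
    (hN : N ∈ tables r c) (hx : x ∈ tables r c) (hy : y ∈ tables r c)
    (h1 : ∀ i, i ∉ e → N i = x i) (h2 : ∀ i, i ∉ f → x i = y i) : hyb e N y ∈ tables r c := by
  rw [mem_tables] at hN hx hy ⊢
  refine ⟨fun i => ?_, fun z => ?_⟩
  · by_cases hi : i ∈ e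
    · rw [← hN.1 i]
      simp [hyb, hi]
    · rw [← hy.1 i]
      simp [hyb, hi]
  · have h3 : ∑ i, hyb e N y i z + ∑ i, x i z = ∑ i, N i z + ∑ i, y i z := by
      rw [← Finset.sum_add_distrib, ← Finset.sum_add_distrib]
      apply Finset.sum_congr rfl
      intro i _
      by_cases hi : i ∈ e
      · have hif : i ∉ f := Finset.disjoint_left.1 hd hi
        simp [hyb, hi, h2 i hif]
      · simp [hyb, hi, h1 i hi]
        ring
    have h4 := hN.2 z
    have h5 := hx.2 z
    have h6 := hy.2 z
    omega

theorem hyb_hyb (e : Finset R) {N x : R → C → ℕ} (y : R → C → ℕ)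
    (h1 : ∀ i, i ∉ e → N i = x i) : hyb e (hyb e N y) x = N := by
  funext i
  by_cases hi : i ∈ e
  · simp [hyb, hi]
  · simp [hyb, hi, h1 i hi]

/-- Conditioning on the rows outside `e` keeps measurability with respect to the rows outside a
disjoint `f`. -/
theorem cexp_keeps_measurable {e f : Finset R} (hd : Disjoint e f) {g : (R → C → ℕ) → ℝ}
    (hg : ∀ x ∈ tables r c, ∀ y ∈ tables r c, keyOut f x = keyOut f y → g x = g y) :
    ∀ x ∈ tables r c, ∀ y ∈ tables r c, keyOut f x = keyOut f y →
      cexp (tables r c) (keyOut e) g x = cexp (tables r c) (keyOut e) g y := by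
  intro x hx y hy hk
  have hk' := keyOut_eq.1 hk
  have hk'' : ∀ i, i ∉ f → y i = x i := fun i hi => (hk' i hi).symm
  have hmaps : ∀ {x y : R → C → ℕ}, x ∈ tables r c → y ∈ tables r c →
      (∀ i, i ∉ f → x i = y i) → ∀ N ∈ sfib (tables r c) (keyOut e) x,
        hyb e N y ∈ sfib (tables r c) (keyOut e) y := by
    intro x y hx hy hxy N hN
    obtain ⟨hN1, hN2⟩ := mem_sfib.1 hN
    have hN3 := keyOut_eq.1 hN2
    refine mem_sfib.2 ⟨hyb_mem hd hN1 hx hy hN3 hxy, ?_⟩
    rw [keyOut_eq]
    intro i hi
    simp [hyb, hi]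
  unfold cexp
  have h1 : ∑ N ∈ sfib (tables r c) (keyOut e) x, g N
      = ∑ N ∈ sfib (tables r c) (keyOut e) y, g N := by
    apply Finset.sum_nbij' (fun N => hyb e N y) (fun N => hyb e N x)
    · exact hmaps hx hy hk'
    · exact hmaps hy hx hk''
    · intro N hN
      exact hyb_hyb e y (keyOut_eq.1 (mem_sfib.1 hN).2)
    · intro N hN
      exact hyb_hyb e x (keyOut_eq.1 (mem_sfib.1 hN).2)
    · intro N hN
      obtain ⟨hN1, hN2⟩ := mem_sfib.1 hN
      have hN3 := keyOut_eq.1 hN2
      apply hg _ hN1 _ (hyb_mem hd hN1 hx hy hN3 hk')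
      rw [keyOut_eq]
      intro i hi
      by_cases hie : i ∈ e
      · simp [hyb, hie]
      · simp [hyb, hie, hN3 i hie, hk' i hi]
  have h2 : (sfib (tables r c) (keyOut e) x).card = (sfib (tables r c) (keyOut e) y).card := by
    apply Finset.card_nbij' (fun N => hyb e N y) (fun N => hyb e N x)
    · exact hmaps hx hy hk'
    · exact hmaps hy hx hk''
    · intro N hN
      exact hyb_hyb e y (keyOut_eq.1 (mem_sfib.1 hN).2)
    · intro N hN
      exact hyb_hyb e x (keyOut_eq.1 (mem_sfib.1 hN).2)
  rw [h1, h2]

/-- Defects of disjoint row sets have nonnegative pairing. -/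
theorem dd_comm {e f : Finset R} (hd : Disjoint e f) (φ : (R → C → ℕ) → ℝ) :
    0 ≤ ∑ x ∈ tables r c, dd (tables r c) keyOut e φ x * dd (tables r c) keyOut f φ x := by
  set S := tables r c with hS
  set a : (R → C → ℕ) → ℝ := dd S keyOut f φ with ha
  set h : (R → C → ℕ) → ℝ := cexp S (keyOut f) φ with hh
  have hphi : ∀ x, φ x = a x + h x := by
    intro x
    simp [ha, hh, dd]
  have hdecomp : ∀ x, dd S keyOut e φ x = dd S keyOut e a x + dd S keyOut e h x := by
    intro x
    unfold dd
    have h1 : cexp S (keyOut e) φ x = cexp S (keyOut e) a x + cexp S (keyOut e) h x := by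
      rw [← cexp_add]
      apply cexp_congr_on
      intro y _
      exact hphi y
    rw [h1, hphi x]
    ring
  have hhm : ∀ x ∈ S, ∀ y ∈ S, keyOut f x = keyOut f y → h x = h y :=
    cexp_measurable φ
  have hGm : ∀ x ∈ S, ∀ y ∈ S, keyOut f x = keyOut f y →
      dd S keyOut e h x = dd S keyOut e h y := by
    intro x hx y hy hk
    unfold dd
    rw [hhm x hx y hy hk, cexp_keeps_measurable hd hhm x hx y hy hk]
  have h0 : ∑ x ∈ S, dd S keyOut e h x * a x = 0 := by
    have h1 := sum_mul_cexp_of_measurable (S := S) (κ := keyOut f) hGm φ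
    have h2 : ∑ x ∈ S, dd S keyOut e h x * a x
        = ∑ x ∈ S, dd S keyOut e h x * φ x
          - ∑ x ∈ S, dd S keyOut e h x * cexp S (keyOut f) φ x := by
      rw [← Finset.sum_sub_distrib]
      apply Finset.sum_congr rfl
      intro x _
      simp only [ha, dd]
      ring
    rw [h2, h1, sub_self]
  have h1 : ∑ x ∈ S, dd S keyOut e φ x * a x
      = ∑ x ∈ S, (dd S keyOut e a x) ^ 2 + ∑ x ∈ S, dd S keyOut e h x * a x := by
    rw [← sum_dd_mul', ← Finset.sum_add_distrib]
    apply Finset.sum_congr rfl
    intro x _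
    rw [hdecomp]
    ring
  rw [h1, h0, add_zero]
  exact Finset.sum_nonneg (fun x _ => sq_nonneg _)

/-! ### Connectivity -/

theorem exists_gt_of_sum_eq {ι : Type*} [Fintype ι] {g h : ι → ℕ} (hs : ∑ i, g i = ∑ i, h i)
    {z : ι} (hz : g z < h z) : ∃ z', h z' < g z' := by
  by_contra hcon
  push Not at hcon
  have : ∑ i, g i < ∑ i, h i :=
    Finset.sum_lt_sum (fun i _ => hcon i) ⟨z, mem_univ z, hz⟩
  omega

/-- The distance between two tables. -/
def tdist (x y : R → C → ℕ) : ℕ := ∑ a, ∑ b, ((x a b - y a b) + (y a b - x a b))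

/-- An elementary exchange. -/
def xch (i j : R) (z z' : C) (x : R → C → ℕ) : R → C → ℕ := fun a b =>
  x a b + (if a = i ∧ b = z' then 1 else 0) + (if a = j ∧ b = z then 1 else 0)
    - (if a = i ∧ b = z then 1 else 0) - (if a = j ∧ b = z' then 1 else 0)

theorem sum_delta_col (i : R) (z : C) (a : R) :
    ∑ b, (if a = i ∧ b = z then (1 : ℕ) else 0) = if a = i then 1 else 0 := by
  by_cases h : a = i
  · simp [h]
  · simp [h]

theorem sum_delta_row (i : R) (z : C) (b : C) :
    ∑ a, (if a = i ∧ b = z then (1 : ℕ) else 0) = if b = z then 1 else 0 := by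
  by_cases h : b = z
  · simp [h]
  · simp [h]

theorem sum_delta (i : R) (z : C) :
    ∑ a, ∑ b, (if a = i ∧ b = z then (1 : ℕ) else 0) = 1 := by
  simp_rw [sum_delta_col]
  simp

/-- Invariance under two-row moves forces a function to be constant. -/
theorem connectivity (f : (R → C → ℕ) → ℝ)
    (hinv : ∀ i j, i ≠ j → ∀ x ∈ tables r c, ∀ y ∈ tables r c,
      (∀ l, l ≠ i → l ≠ j → x l = y l) → f x = f y) :
    ∀ x ∈ tables r c, ∀ y ∈ tables r c, f x = f y := by
  have main : ∀ n : ℕ, ∀ x y : R → C → ℕ, x ∈ tables r c → y ∈ tables r c → tdist x y = n →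
      f x = f y := by
    intro n
    induction n using Nat.strong_induction_on with
    | _ n ih =>
      intro x y hx hy hn
      by_cases hxy : x = y
      · rw [hxy]
      have hx' := mem_tables.1 hx
      have hy' := mem_tables.1 hy
      -- a positive difference
      have hpos : ∃ i z, y i z < x i z := by
        have : ∃ i z, x i z ≠ y i z := by
          by_contra hcon
          push Not at hcon
          exact hxy (funext fun i => funext fun z => hcon i z)
        obtain ⟨i, z, hne⟩ := this
        rcases lt_or_gt_of_ne hne with hlt | hlt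
        · have hs : ∑ b, x i b = ∑ b, y i b := by rw [hx'.1 i, hy'.1 i]
          obtain ⟨z', hz'⟩ := exists_gt_of_sum_eq hs hlt
          exact ⟨i, z', hz'⟩
        · exact ⟨i, z, hlt⟩
      obtain ⟨i, z, hiz⟩ := hpos
      have hs1 : ∑ b, y i b = ∑ b, x i b := by rw [hx'.1 i, hy'.1 i]
      obtain ⟨z', hz'⟩ := exists_gt_of_sum_eq hs1 hiz
      have hs2 : ∑ a, x a z' = ∑ a, y a z' := by rw [hx'.2 z', hy'.2 z']
      obtain ⟨j, hj⟩ := exists_gt_of_sum_eq hs2 hz'
      have hij : i ≠ j := by
        rintro rfl
        omega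
      have hzz : z ≠ z' := by
        rintro rfl
        omega
      -- the pointwise identity
      have hpt : ∀ a b, xch i j z z' x a b + (if a = i ∧ b = z then 1 else 0)
          + (if a = j ∧ b = z' then 1 else 0)
          = x a b + (if a = i ∧ b = z' then 1 else 0) + (if a = j ∧ b = z then 1 else 0) := by
        intro a b
        unfold xch
        by_cases h1 : a = i
        · subst h1
          have hne : a ≠ j := hij
          by_cases h2 : b = z
          · subst h2
            have : b ≠ z' := hzz
            simp [this, hne]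
            omega
          · simp [h2, hne]
        · by_cases h3 : a = j
          · subst h3
            by_cases h2 : b = z'
            · subst h2
              have : b ≠ z := fun e => hzz e.symm
              simp [this, h1]
              omega
            · simp [h2, h1]
          · simp [h1, h3]
      have hmem : xch i j z z' x ∈ tables r c := by
        rw [mem_tables]
        refine ⟨fun a => ?_, fun b => ?_⟩
        · have h1 : ∑ b, (xch i j z z' x a b + (if a = i ∧ b = z then 1 else 0)
              + (if a = j ∧ b = z' then 1 else 0))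
              = ∑ b, (x a b + (if a = i ∧ b = z' then 1 else 0)
                + (if a = j ∧ b = z then 1 else 0)) :=
            Finset.sum_congr rfl fun b _ => hpt a b
          simp only [Finset.sum_add_distrib, sum_delta_col] at h1
          have := hx'.1 a
          omega
        · have h1 : ∑ a, (xch i j z z' x a b + (if a = i ∧ b = z then 1 else 0)
              + (if a = j ∧ b = z' then 1 else 0))
              = ∑ a, (x a b + (if a = i ∧ b = z' then 1 else 0)
                + (if a = j ∧ b = z then 1 else 0)) :=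
            Finset.sum_congr rfl fun a _ => hpt a b
          simp only [Finset.sum_add_distrib, sum_delta_row] at h1
          have := hx'.2 b
          split_ifs at h1 <;> omega
      have hoff : ∀ l, l ≠ i → l ≠ j → xch i j z z' x l = x l := by
        intro l h1 h2
        funext b
        simp [xch, h1, h2]
      have hfx : f (xch i j z z' x) = f x :=
        hinv i j hij _ hmem _ hx hoff
      -- the distance drops
      have hlt : tdist (xch i j z z' x) y < n := by
        have hle : ∀ a b, ((xch i j z z' x a b - y a b) + (y a b - xch i j z z' x a b))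
            + (if a = i ∧ b = z then 1 else 0) + (if a = i ∧ b = z' then 1 else 0)
            + (if a = j ∧ b = z' then 1 else 0)
            ≤ ((x a b - y a b) + (y a b - x a b)) + (if a = j ∧ b = z then 1 else 0) := by
          intro a b
          have h0 := hpt a b
          by_cases h1 : a = i
          · subst h1
            have hne : a ≠ j := hij
            by_cases h2 : b = z
            · subst h2
              have : b ≠ z' := hzz
              simp only [true_and, this, hne, false_and, if_true, if_false, and_self] at h0 ⊢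
              omega
            · by_cases h3 : b = z'
              · subst h3
                simp only [true_and, h2, hne, false_and, if_true, if_false, and_self] at h0 ⊢
                omega
              · simp only [true_and, h2, h3, hne, false_and, if_false, add_zero] at h0 ⊢
                omega
          · by_cases h3 : a = j
            · subst h3
              by_cases h2 : b = z'
              · subst h2
                have : b ≠ z := fun e => hzz e.symm
                simp only [true_and, this, h1, false_and, if_true, if_false, add_zero,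
                  zero_add] at h0 ⊢
                omega
              · by_cases h4 : b = z
                · subst h4
                  simp only [true_and, h2, h1, false_and, if_true, if_false, add_zero,
                    zero_add] at h0 ⊢
                  omega
                · simp only [true_and, h2, h4, h1, false_and, if_false, add_zero] at h0 ⊢
                  omega
            · simp only [h1, h3, false_and, if_false, add_zero] at h0 ⊢
              omega
        have hsum : ∑ a, ∑ b, (((xch i j z z' x a b - y a b) + (y a b - xch i j z z' x a b))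
            + (if a = i ∧ b = z then 1 else 0) + (if a = i ∧ b = z' then 1 else 0)
            + (if a = j ∧ b = z' then 1 else 0))
            ≤ ∑ a, ∑ b, (((x a b - y a b) + (y a b - x a b)) + (if a = j ∧ b = z then 1 else 0)) :=
          Finset.sum_le_sum fun a _ => Finset.sum_le_sum fun b _ => hle a b
        simp only [Finset.sum_add_distrib, sum_delta] at hsum
        unfold tdist at hn ⊢
        simp only [Finset.sum_add_distrib] at hn ⊢
        omega
      rw [← hfx]
      exact ih _ hlt _ _ hmem hy rfl
  intro x hx y hy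
  exact main _ x y hx hy rfl

/-- Defects vanishing on all pairs of rows force a constant. -/
theorem dd_ker (f : (R → C → ℕ) → ℝ)
    (h : ∀ e ∈ pairsOf (univ : Finset R), ∀ x ∈ tables r c, dd (tables r c) keyOut e f x = 0) :
    ∀ x ∈ tables r c, ∀ y ∈ tables r c, f x = f y := by
  apply connectivity
  intro i j hij x hx y hy hxy
  have he : ({i, j} : Finset R) ∈ pairsOf (univ : Finset R) :=
    mem_powersetCard.2 ⟨subset_univ _, card_pair hij⟩
  have h1 := h _ he x hx
  have h2 := h _ he y hy
  unfold dd at h1 h2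
  have hk : keyOut ({i, j} : Finset R) x = keyOut {i, j} y := by
    rw [keyOut_eq]
    intro l hl
    simp only [mem_insert, mem_singleton, not_or] at hl
    exact hxy l hl.1 hl.2
  have h3 : cexp (tables r c) (keyOut ({i, j} : Finset R)) f x
      = cexp (tables r c) (keyOut {i, j}) f y := cexp_congr f hk
  linarith

/-! ### Blocks of three rows -/

/-- Restrict a table to the rows of `t`. -/
def resT (t : Finset R) (M : R → C → ℕ) : {i // i ∈ t} → C → ℕ := fun i => M i.1

/-- Extend a table on the rows of `t` by the rows of `x₀`. -/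
def extT (t : Finset R) (x₀ : R → C → ℕ) (N : {i // i ∈ t} → C → ℕ) : R → C → ℕ :=
  fun i => if h : i ∈ t then N ⟨i, h⟩ else x₀ i

theorem col_split (t : Finset R) (M : R → C → ℕ) (z : C) :
    ∑ i, M i z = ∑ i, resT t M i z + ∑ i ∈ tᶜ, M i z := by
  unfold resT
  rw [← Finset.sum_add_sum_compl t]
  congr 1
  exact (Finset.sum_coe_sort t (fun i => M i z)).symm

theorem resT_extT (t : Finset R) (x₀ : R → C → ℕ) (N : {i // i ∈ t} → C → ℕ) :
    resT t (extT t x₀ N) = N := by
  funext i z
  simp [resT, extT, i.2]

theorem extT_resT {t : Finset R} {x₀ M : R → C → ℕ} (h : ∀ i, i ∉ t → M i = x₀ i) :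
    extT t x₀ (resT t M) = M := by
  funext i z
  by_cases hi : i ∈ t
  · simp [resT, extT, hi]
  · simp [extT, hi, h i hi]

/-- Row targets on `t`. -/
def rT (t : Finset R) (r : R → ℕ) : {i // i ∈ t} → ℕ := fun i => r i.1

/-- Column targets on `t`. -/
def cT (t : Finset R) (x₀ : R → C → ℕ) : C → ℕ := fun z => ∑ i, resT t x₀ i z

theorem resT_mem {t : Finset R} {x₀ M : R → C → ℕ} (hx₀ : x₀ ∈ tables r c) (hM : M ∈ tables r c)
    (h : ∀ i, i ∉ t → M i = x₀ i) : resT t M ∈ tables (rT t r) (cT t x₀) := by
  rw [mem_tables] at hM hx₀ ⊢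
  refine ⟨fun i => hM.1 i.1, fun z => ?_⟩
  have h1 := col_split t M z
  have h2 := col_split t x₀ z
  have h3 : ∑ i ∈ tᶜ, M i z = ∑ i ∈ tᶜ, x₀ i z := by
    apply Finset.sum_congr rfl
    intro i hi
    rw [h i (mem_compl.1 hi)]
  rw [hM.2 z] at h1
  rw [hx₀.2 z] at h2
  unfold cT
  omega

theorem extT_mem {t : Finset R} {x₀ : R → C → ℕ} {N : {i // i ∈ t} → C → ℕ}
    (hx₀ : x₀ ∈ tables r c) (hN : N ∈ tables (rT t r) (cT t x₀)) : extT t x₀ N ∈ tables r c := by
  rw [mem_tables] at hN hx₀ ⊢
  refine ⟨fun i => ?_, fun z => ?_⟩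
  · by_cases hi : i ∈ t
    · have := hN.1 ⟨i, hi⟩
      simpa [extT, hi, rT] using this
    · have := hx₀.1 i
      simpa [extT, hi] using this
  · have h1 := col_split t (extT t x₀ N) z
    have h2 := col_split t x₀ z
    have h3 : ∑ i ∈ tᶜ, extT t x₀ N i z = ∑ i ∈ tᶜ, x₀ i z := by
      apply Finset.sum_congr rfl
      intro i hi
      simp [extT, mem_compl.1 hi]
    rw [resT_extT] at h1
    have h4 := hN.2 z
    have h5 := hx₀.2 z
    unfold cT at h4
    omega

/-- The three-row inequality bounds the sum of the three conditional expectations. -/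
theorem gap3 {R' : Type*} [Fintype R'] [DecidableEq R'] {r' : R' → ℕ} {c' : C → ℕ}
    (hstar : Star r' c') (g : (R' → C → ℕ) → ℝ) (hg : ∑ M ∈ tables r' c', g M = 0) :
    ∑ a, ∑ M ∈ tables r' c', (cexp (tables r' c') (fun N => N a) g M) ^ 2
      ≤ 2 * ∑ M ∈ tables r' c', (g M) ^ 2 := by
  set T := tables r' c' with hT
  -- the functions of the rows
  let G : R' → (C → ℕ) → ℝ := fun a v =>
    (∑ y ∈ T.filter (fun y => y a = v), g y) / ((T.filter (fun y => y a = v)).card : ℝ)
  have hG : ∀ a M, G a (M a) = cexp T (fun N => N a) g M := fun a M => rfl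
  have hmean : ∀ a, ∑ M ∈ T, G a (M a) = 0 := by
    intro a
    simp only [hG]
    rw [sum_cexp, hg]
  have h1 := hstar G hmean
  rw [← hT] at h1
  simp only [hG] at h1
  set W := ∑ a, ∑ M ∈ T, (cexp T (fun N => N a) g M) ^ 2 with hW
  have hW2 : ∑ M ∈ T, ∑ a, (cexp T (fun N => N a) g M) ^ 2 = W := by
    rw [hW, Finset.sum_comm]
  rw [hW2] at h1
  have hpair : W = ∑ M ∈ T, (∑ a, cexp T (fun N => N a) g M) * g M := by
    simp only [Finset.sum_mul]
    rw [Finset.sum_comm, hW]
    refine Finset.sum_congr rfl fun a _ => ?_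
    have := sum_mul_cexp_of_measurable (S := T) (κ := fun N : R' → C → ℕ => N a)
      (cexp_measurable g) g
    calc ∑ M ∈ T, (cexp T (fun N => N a) g M) ^ 2
        = ∑ M ∈ T, cexp T (fun N => N a) g M * cexp T (fun N => N a) g M :=
          Finset.sum_congr rfl fun _ _ => sq _
      _ = _ := this
  have hcs := Finset.sum_mul_sq_le_sq_mul_sq T (fun M => ∑ a, cexp T (fun N => N a) g M) g
  rw [← hpair] at hcs
  have hWnn : 0 ≤ W := Finset.sum_nonneg fun a _ => Finset.sum_nonneg fun _ _ => sq_nonneg _
  have hg2 : 0 ≤ ∑ M ∈ T, (g M) ^ 2 := Finset.sum_nonneg fun _ _ => sq_nonneg _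
  by_cases hW0 : W = 0
  · rw [hW0]
    linarith
  · have hWpos : 0 < W := lt_of_le_of_ne hWnn (Ne.symm hW0)
    have : W * W ≤ W * (2 * ∑ M ∈ T, (g M) ^ 2) := by
      calc W * W = W ^ 2 := by ring
        _ ≤ _ := hcs
        _ ≤ (2 * W) * ∑ M ∈ T, (g M) ^ 2 := mul_le_mul_of_nonneg_right h1 hg2
        _ = _ := by ring
    exact le_of_mul_le_mul_left this hWpos

/-- The three-row inequality transported to a block of three rows. -/
theorem block_gap {t : Finset R} (ht : t.card = 3) {x₀ : R → C → ℕ} (hx₀ : x₀ ∈ tables r c)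
    (hstar : Star (rT t r) (cT t x₀))
    (g : (R → C → ℕ) → ℝ)
    (hg : ∑ y ∈ sfib (tables r c) (keyOut t) x₀, g y = 0) :
    ∑ y ∈ sfib (tables r c) (keyOut t) x₀, (g y) ^ 2
      ≤ ∑ e ∈ pairsOf t, ∑ y ∈ sfib (tables r c) (keyOut t) x₀,
          (dd (tables r c) keyOut e g y) ^ 2 := by
  set S := tables r c with hS
  set W := sfib S (keyOut t) x₀ with hW
  set S' := tables (rT t r) (cT t x₀) with hS'
  set g' : ({i // i ∈ t} → C → ℕ) → ℝ := fun N => g (extT t x₀ N) with hg'
  have hcard : Fintype.card {i // i ∈ t} = 3 := by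
    rw [Fintype.card_coe, ht]
  have hWmem : ∀ y, y ∈ W ↔ y ∈ S ∧ ∀ i, i ∉ t → y i = x₀ i := by
    intro y
    rw [hW, mem_sfib, keyOut_eq]
  have hsumW : ∀ F : (R → C → ℕ) → ℝ, ∑ y ∈ W, F y = ∑ N ∈ S', F (extT t x₀ N) := by
    intro F
    apply Finset.sum_nbij' (resT t) (extT t x₀)
    · intro y hy
      obtain ⟨h1, h2⟩ := (hWmem y).1 hy
      exact resT_mem hx₀ h1 h2
    · intro N hN
      refine (hWmem _).2 ⟨extT_mem hx₀ hN, fun i hi => ?_⟩
      simp [extT, hi]
    · intro y hy
      exact extT_resT ((hWmem y).1 hy).2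
    · intro N _
      exact resT_extT t x₀ N
    · intro y hy
      rw [extT_resT ((hWmem y).1 hy).2]
  have hE : ∀ a : {i // i ∈ t}, ∀ N ∈ S',
      cexp S (keyOut (t.erase a.1)) g (extT t x₀ N) = cexp S' (fun Nh => Nh a) g' N := by
    intro a N hN
    unfold cexp
    have hmaps1 : ∀ Nh ∈ sfib S' (fun Nh => Nh a) N,
        extT t x₀ Nh ∈ sfib S (keyOut (t.erase a.1)) (extT t x₀ N) := by
      intro Nh hNh
      obtain ⟨h1, h2⟩ := mem_sfib.1 hNh
      have h2' : Nh a = N a := h2
      refine mem_sfib.2 ⟨extT_mem hx₀ h1, ?_⟩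
      rw [keyOut_eq]
      intro i hi
      by_cases hit : i ∈ t
      · have hia : i = a.1 := by
          by_contra hne
          exact hi (mem_erase.2 ⟨hne, hit⟩)
        subst hia
        simp only [extT, hit, dif_pos]
        exact h2'
      · simp [extT, hit]
    have hmaps2 : ∀ y ∈ sfib S (keyOut (t.erase a.1)) (extT t x₀ N),
        resT t y ∈ sfib S' (fun Nh => Nh a) N := by
      intro y hy
      obtain ⟨h1, h2⟩ := mem_sfib.1 hy
      have h3 := keyOut_eq.1 h2
      have h4 : ∀ i, i ∉ t → y i = x₀ i := by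
        intro i hi
        rw [h3 i (fun h => hi (mem_of_mem_erase h))]
        simp [extT, hi]
      refine mem_sfib.2 ⟨resT_mem hx₀ h1 h4, ?_⟩
      show resT t y a = N a
      have h5 := h3 a.1 (by simp)
      simp only [resT, h5]
      simp [extT, a.2]
    have hinv : ∀ y ∈ sfib S (keyOut (t.erase a.1)) (extT t x₀ N), extT t x₀ (resT t y) = y := by
      intro y hy
      obtain ⟨_, h2⟩ := mem_sfib.1 hy
      have h3 := keyOut_eq.1 h2
      apply extT_resT
      intro i hi
      rw [h3 i (fun h => hi (mem_of_mem_erase h))]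
      simp [extT, hi]
    have h1 : ∑ y ∈ sfib S (keyOut (t.erase a.1)) (extT t x₀ N), g y
        = ∑ Nh ∈ sfib S' (fun Nh => Nh a) N, g' Nh := by
      symm
      apply Finset.sum_nbij' (extT t x₀) (resT t) hmaps1 hmaps2
      · intro Nh _
        exact resT_extT t x₀ Nh
      · exact hinv
      · intro Nh _
        rfl
    have h2 : (sfib S (keyOut (t.erase a.1)) (extT t x₀ N)).card
        = (sfib S' (fun Nh => Nh a) N).card := by
      symm
      apply Finset.card_nbij' (extT t x₀) (resT t) hmaps1 hmaps2
      · intro Nh _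
        exact resT_extT t x₀ Nh
      · exact hinv
    rw [h1, h2]
  have hmean : ∑ N ∈ S', g' N = 0 := by
    rw [← hg, hsumW]
  have h3 := gap3 hstar g' hmean
  rw [← hS'] at h3
  rw [sum_pairsOf_eq t ht, hsumW]
  have hterm : ∀ a : {i // i ∈ t},
      ∑ y ∈ W, (dd S keyOut (t.erase a.1) g y) ^ 2
        = ∑ N ∈ S', (g' N) ^ 2 - ∑ N ∈ S', (cexp S' (fun Nh => Nh a) g' N) ^ 2 := by
    intro a
    rw [hsumW]
    have h4 : ∀ N ∈ S', (dd S keyOut (t.erase a.1) g (extT t x₀ N)) ^ 2
        = (g' N - cexp S' (fun Nh => Nh a) g' N) ^ 2 := by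
      intro N hN
      unfold dd
      rw [hE a N hN]
    rw [Finset.sum_congr rfl h4]
    have h5 := sum_dd_sq' (R := R) S' (fun _ => fun Nh => Nh a) ∅ g'
    simpa [dd] using h5
  rw [Finset.sum_congr rfl (fun a _ => hterm a), Finset.sum_sub_distrib, Finset.sum_const,
    Finset.card_univ, hcard]
  simp only [nsmul_eq_mul]
  push_cast
  linarith

/-- **The gap theorem.** If the three-row inequality holds on every block of three rows, then the
sum over pairs of rows of the defects of conditioning dominates the variance. -/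
theorem gap_of_star (r : R → ℕ) (c : C → ℕ)
    (hstar : ∀ t : Finset R, t.card = 3 → ∀ x₀ ∈ tables r c, Star (rT t r) (cT t x₀))
    (f : (R → C → ℕ) → ℝ) (hf : ∑ x ∈ tables r c, f x = 0) :
    ∑ x ∈ tables r c, (f x) ^ 2
      ≤ ∑ e ∈ pairsOf (univ : Finset R), ∑ x ∈ tables r c, (dd (tables r c) keyOut e f x) ^ 2 := by
  apply gap_of_square' (tables r c) keyOut (pairsOf (univ : Finset R)) _ dd_ker f hf
  intro φ
  apply knabe_algebra (tables r c) (fun e => dd (tables r c) keyOut e φ)
  · intro e _ f' _ hd
    exact dd_comm hd φ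
  · intro t ht
    have htc : t.card = 3 := (mem_powersetCard.1 ht).2
    apply square_of_block_gap' (tables r c) keyOut t (pairsOf t)
    · intro e he x y hk
      exact keyOut_tower (mem_powersetCard.1 he).1 hk
    · intro x₀ hx₀ g hg
      exact block_gap htc hx₀ (hstar t htc x₀ hx₀) g hg

end Port

end Vale.Agent.Lib.P328
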